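import Mathlib

/-! Integrals along a line, locally finite families of smooth functions. -/

namespace Vale.Agent.P184.An

open scoped ContDiff

variable {V E : Type} [NormedAddCommGroup V] [NormedSpace ℝ V]
  [NormedAddCommGroup E] [NormedSpace ℝ E] {ι : Type*}

/-- weighted integral along the direction `u` -/
noncomputable def lint (u : V) (k : ℝ → ℝ) (w : ℝ) (F : V → E) (s : V) : E :=
  ∫ τ in (0 : ℝ)..w, k τ • F (s + τ • u)

/-- locally finite family of smooth functions -/
def LF (a : V → ι → E) : Prop :=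
  (∀ b, ContDiff ℝ ∞ fun s => a s b) ∧
    ∀ R : ℝ, ∃ U : Finset ι, ∀ s, ‖s‖ < R → ∀ b ∉ U, a s b = 0

/-- derivative of a family -/
noncomputable def D (a : V → ι → E) (s : V) (b : ι) : V →L[ℝ] E := fderiv ℝ (fun s => a s b) s

theorem hasFDerivAt_lint [FiniteDimensional ℝ V] [CompleteSpace E] (u : V) {k : ℝ → ℝ}
    (hk : Continuous k) (w : ℝ) {F : V → E} (hF : ContDiff ℝ 1 F) (s : V) :
    HasFDerivAt (lint u k w F) (lint u k w (fderiv ℝ F) s) s := by
  have hc : Continuous F := hF.continuous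
  have hc' : Continuous (fderiv ℝ F) := hF.continuous_fderiv (by simp)
  have hG : Continuous fun p : V × ℝ => k p.2 • fderiv ℝ F (p.1 + p.2 • u) := by fun_prop
  have := FiniteDimensional.proper_real V
  obtain ⟨C, hC⟩ := ((isCompact_closedBall s 1).prod (isCompact_uIcc (a := 0) (b := w))).exists_bound_of_continuousOn
    hG.continuousOn
  refine intervalIntegral.hasFDerivAt_integral_of_dominated_of_fderiv_le
    (F := fun x τ => k τ • F (x + τ • u)) (F' := fun x τ => k τ • fderiv ℝ F (x + τ • u))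
    (bound := fun _ => C) (Metric.closedBall_mem_nhds s one_pos)
    (Filter.Eventually.of_forall fun x => Continuous.aestronglyMeasurable (by fun_prop))
    (Continuous.intervalIntegrable (by fun_prop) _ _) (Continuous.aestronglyMeasurable (by fun_prop))
    (Filter.Eventually.of_forall fun t ht x hx => hC (x, t) ⟨hx, Set.uIoc_subset_uIcc ht⟩)
    (by simp) (Filter.Eventually.of_forall fun t _ x _ => ?_)
  have h1 : HasFDerivAt (fun x => F (x + t • u)) (fderiv ℝ F (x + t • u)) x :=
    (hasFDerivAt_comp_add_right (t • u)).2 (hF.differentiable (by simp) _).hasFDerivAt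
  exact h1.const_smul (k t)

theorem fderiv_lint [FiniteDimensional ℝ V] [CompleteSpace E] (u : V) {k : ℝ → ℝ}
    (hk : Continuous k) (w : ℝ) {F : V → E} (hF : ContDiff ℝ ∞ F) :
    fderiv ℝ (lint u k w F) = lint u k w (fderiv ℝ F) :=
  funext fun s => (hasFDerivAt_lint u hk w (hF.of_le (by simp)) s).fderiv

theorem contDiff_lint_nat [FiniteDimensional ℝ V] (u : V) {k : ℝ → ℝ} (hk : Continuous k) (w : ℝ)
    (n : ℕ) : ∀ (E : Type) [NormedAddCommGroup E] [NormedSpace ℝ E] [CompleteSpace E] (F : V → E),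
      ContDiff ℝ ∞ F → ContDiff ℝ n (lint u k w F) := by
  induction n with
  | zero =>
    intro E _ _ _ F hF
    exact contDiff_zero.2 (continuous_iff_continuousAt.2 fun s =>
      (hasFDerivAt_lint u hk w (hF.of_le (by simp)) s).continuousAt)
  | succ n ih =>
    intro E _ _ _ F hF
    rw [Nat.cast_succ, contDiff_succ_iff_fderiv]
    refine ⟨fun s => (hasFDerivAt_lint u hk w (hF.of_le (by simp)) s).differentiableAt, by simp, ?_⟩
    rw [fderiv_lint u hk w hF]
    exact ih _ _ (contDiff_infty_iff_fderiv.1 hF).2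

theorem contDiff_lint [FiniteDimensional ℝ V] [CompleteSpace E] (u : V) {k : ℝ → ℝ}
    (hk : Continuous k) (w : ℝ) {F : V → E} (hF : ContDiff ℝ ∞ F) : ContDiff ℝ ∞ (lint u k w F) :=
  contDiff_infty.2 fun n => contDiff_lint_nat u hk w n E F hF

namespace LF

variable {a : V → ι → E}

theorem of_zero {E' : Type} [NormedAddCommGroup E'] [NormedSpace ℝ E'] {a' : V → ι → E'}
    (ha : LF a) (h1 : ∀ b, ContDiff ℝ ∞ fun s => a' s b) (h2 : ∀ s b, a s b = 0 → a' s b = 0) :
    LF a' :=
  ⟨h1, fun R => (ha.2 R).imp fun _ hU s hs b hb => h2 s b (hU s hs b hb)⟩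

theorem diff (ha : LF a) (b : ι) (s : V) : HasFDerivAt (fun s => a s b) (D a s b) s :=
  ((ha.1 b).differentiable (by simp) s).hasFDerivAt

theorem cont (ha : LF a) (b : ι) : Continuous fun s => a s b := (ha.1 b).continuous

theorem D (ha : LF a) : LF (D a) := by
  refine ⟨fun b => (contDiff_infty_iff_fderiv.1 (ha.1 b)).2, fun R => ?_⟩
  obtain ⟨U, hU⟩ := ha.2 R
  refine ⟨U, fun s hs b hb => ?_⟩
  have : (fun s => a s b) =ᶠ[nhds s] fun _ => 0 := by
    filter_upwards [(isOpen_lt continuous_norm continuous_const).mem_nhds hs] with y hy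
    exact hU y hy b hb
  rw [An.D, this.fderiv_eq]; simp

theorem finite (ha : LF a) (s : V) : (Function.support (a s)).Finite := by
  obtain ⟨U, hU⟩ := ha.2 (‖s‖ + 1)
  exact U.finite_toSet.subset fun b hb => by_contra fun h => hb (hU s (by linarith) b h)

theorem summable (ha : LF a) (s : V) : Summable (a s) := summable_of_hasFiniteSupport (ha.finite s)

/-- a finite set that works near `s` -/
theorem near (ha : LF a) (s : V) : ∃ U : Finset ι, (∀ b ∉ U, a s b = 0) ∧ (∀ b ∉ U, An.D a s b = 0) ∧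
    (fun s => ∑' b, a s b) =ᶠ[nhds s] fun s => ∑ b ∈ U, a s b := by
  classical
  obtain ⟨U, hU⟩ := ha.2 (‖s‖ + 1)
  obtain ⟨U', hU'⟩ := ha.D.2 (‖s‖ + 1)
  refine ⟨U ∪ U', fun b hb => hU s (by linarith) b fun h => hb (by simp [h]),
    fun b hb => hU' s (by linarith) b fun h => hb (by simp [h]), ?_⟩
  filter_upwards [(isOpen_lt continuous_norm continuous_const).mem_nhds
    (show ‖s‖ < ‖s‖ + 1 by linarith)] with y hy
  exact tsum_eq_sum fun b hb => hU y hy b fun h => hb (by simp [h])

theorem contDiff_tsum (ha : LF a) : ContDiff ℝ ∞ fun s => ∑' b, a s b := by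
  refine contDiff_iff_contDiffAt.2 fun s => ?_
  obtain ⟨U, -, -, h⟩ := ha.near s
  exact (ContDiff.sum fun b _ => ha.1 b).contDiffAt.congr_of_eventuallyEq h

theorem hasFDerivAt_tsum (ha : LF a) (s : V) :
    HasFDerivAt (fun s => ∑' b, a s b) (∑' b, An.D a s b) s := by
  obtain ⟨U, -, h2, h⟩ := ha.near s
  rw [tsum_eq_sum h2]
  exact (HasFDerivAt.fun_sum fun b _ => ha.diff b s).congr_of_eventuallyEq h

/-- a finite set that works on a segment -/
theorem line (ha : LF a) (s u : V) (T : ℝ) :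
    ∃ U : Finset ι, ∀ t, |t| ≤ T → ∀ b ∉ U, a (s + t • u) b = 0 := by
  obtain ⟨U, hU⟩ := ha.2 (‖s‖ + T * ‖u‖ + 1)
  refine ⟨U, fun t ht => hU _ ?_⟩
  have h1 := norm_add_le s (t • u)
  rw [norm_smul, Real.norm_eq_abs] at h1
  have := mul_le_mul_of_nonneg_right ht (norm_nonneg u)
  linarith

theorem lint [FiniteDimensional ℝ V] [CompleteSpace E] (ha : LF a) (u : V) {k : ℝ → ℝ}
    (hk : Continuous k) (w : ℝ) : LF fun s b => lint u k w (fun s => a s b) s := by
  refine ⟨fun b => contDiff_lint u hk w (ha.1 b), fun R => ?_⟩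
  obtain ⟨U, hU⟩ := ha.2 (R + |w| * ‖u‖)
  refine ⟨U, fun s hs b hb => ?_⟩
  refine (intervalIntegral.integral_congr (g := fun _ => 0) fun τ hτ => ?_).trans (by simp)
  have h1 := norm_add_le s (τ • u)
  rw [norm_smul, Real.norm_eq_abs] at h1
  have h2 : |τ| ≤ |w| := by simpa using Set.abs_sub_left_of_mem_uIcc hτ
  have := mul_le_mul_of_nonneg_right h2 (norm_nonneg u)
  simp only
  rw [hU _ (by linarith) b hb, smul_zero]

theorem D_lint [FiniteDimensional ℝ V] [CompleteSpace E] (ha : LF a) (u : V) {k : ℝ → ℝ}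
    (hk : Continuous k) (w : ℝ) (s : V) (b : ι) (v : V) :
    An.D (fun s b => An.lint u k w (fun s => a s b) s) s b v =
      ∫ τ in (0 : ℝ)..w, k τ • An.D a (s + τ • u) b v := by
  have hc := ha.D.cont b
  change fderiv ℝ (An.lint u k w (fun s => a s b)) s v = _
  rw [fderiv_lint u hk w (ha.1 b), An.lint, ContinuousLinearMap.intervalIntegral_apply]
  · rfl
  · exact Continuous.intervalIntegrable (by change Continuous fun τ => k τ • An.D a (s + τ • u) b; fun_prop) _ _

end LF

end Vale.Agent.P184.An
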