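import Mathlib

/-! Real line lemmas: integrals over unit windows. -/

namespace Vale.Agent.P184.An

open intervalIntegral

/-- all integrals over windows of length one are at most `ρ` -/
def Win (h : ℝ → ℝ) (ρ : ℝ) : Prop := ∀ t0 : ℝ, ∫ t in t0..t0 + 1, h t ≤ ρ

theorem Win.of_le {h h' : ℝ → ℝ} {ρ ρ' : ℝ} (hW : Win h' ρ') (hc : Continuous h)
    (hc' : Continuous h') (hle : ∀ t, h t ≤ h' t) (hρ : ρ' ≤ ρ) : Win h ρ := fun t0 =>
  (integral_mono_on (by linarith) (hc.intervalIntegrable _ _) (hc'.intervalIntegrable _ _)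
    fun t _ => hle t).trans ((hW t0).trans hρ)

theorem Win.of_periodic {h : ℝ → ℝ} {ρ : ℝ} (hp : Function.Periodic h 1)
    (h1 : ∫ t in (0 : ℝ)..1, h t ≤ ρ) : Win h ρ := fun t0 => by
  rw [hp.intervalIntegral_add_eq t0 0, zero_add]; exact h1

theorem Win.zero_one {h : ℝ → ℝ} {ρ : ℝ} (hW : Win h ρ) : ∫ t in (0 : ℝ)..1, h t ≤ ρ := by
  simpa using hW 0

theorem Win.const_mul {h : ℝ → ℝ} {ρ c : ℝ} (hW : Win h ρ) (hc : 0 ≤ c) :
    Win (fun t => c * h t) (c * ρ) := fun t0 => by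
  rw [integral_const_mul]; exact mul_le_mul_of_nonneg_left (hW t0) hc

theorem Win.window {h : ℝ → ℝ} {ρ w : ℝ} (hW : Win h ρ) (hc : Continuous h) (h0 : ∀ t, 0 ≤ h t)
    (hw : 0 ≤ w) (t : ℝ) : ∫ τ in (0 : ℝ)..w, h (t + τ) ≤ (w + 1) * ρ := by
  have hρ : 0 ≤ ρ := (integral_nonneg (by linarith) fun t _ => h0 t).trans (hW 0)
  have key : ∀ n : ℕ, ∫ τ in t..t + n, h τ ≤ n * ρ := by
    intro n
    induction n with
    | zero => simp
    | succ n ih =>
      rw [← integral_add_adjacent_intervals (b := t + n) (hc.intervalIntegrable _ _)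
        (hc.intervalIntegrable _ _)]
      have := hW (t + n)
      push_cast
      rw [← add_assoc]
      linarith
  rw [integral_comp_add_left h t, add_zero]
  have h1 : ∫ τ in t..t + w, h τ ≤ ∫ τ in t..t + (⌈w⌉₊ : ℕ), h τ :=
    integral_mono_interval le_rfl (by linarith) (by linarith [Nat.le_ceil w])
      (Filter.Eventually.of_forall h0) (hc.intervalIntegrable _ _)
  refine h1.trans ((key _).trans ?_)
  exact mul_le_mul_of_nonneg_right (Nat.ceil_lt_add_one hw).le hρ

theorem Win.avg {h : ℝ → ℝ} {ρ w : ℝ} (hW : Win h ρ) (hc : Continuous h) (hw : 0 < w) :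
    Win (fun t => ∫ τ in (0 : ℝ)..w, w⁻¹ * h (t + τ)) ρ := fun t0 => by
  have hF : Continuous fun p : ℝ × ℝ => w⁻¹ * h (p.1 + p.2) := by fun_prop
  rw [MeasureTheory.intervalIntegral_intervalIntegral_swap]
  · have h1 : ∀ τ ∈ Set.Icc (0 : ℝ) w, ∫ t in t0..t0 + 1, w⁻¹ * h (t + τ) ≤ w⁻¹ * ρ := by
      intro τ _
      rw [integral_const_mul, integral_comp_add_right h τ, add_right_comm]
      exact mul_le_mul_of_nonneg_left (hW _) (by positivity)
    refine (integral_mono_on hw.le ?_ (by simp) h1).trans (le_of_eq ?_)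
    · refine Continuous.intervalIntegrable ?_ _ _
      exact continuous_parametric_intervalIntegral_of_continuous' (by unfold Function.uncurry; fun_prop) _ _
    · simp only [integral_const, sub_zero, smul_eq_mul]; field_simp
  · exact (hF.continuousOn.integrableOn_compact (isCompact_uIcc.prod isCompact_uIcc)).mono_set
      (Set.prod_mono Set.uIoc_subset_uIcc Set.uIoc_subset_uIcc)

theorem sq_integral_le {h k : ℝ → ℝ} {w : ℝ} (hc : Continuous h) (hk : Continuous k)
    (hw : 0 < w) (hk1 : ∀ τ ∈ Set.Icc 0 w, |k τ| ≤ 1) :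
    (∫ τ in (0 : ℝ)..w, k τ * h τ) ^ 2 ≤ w * ∫ τ in (0 : ℝ)..w, h τ ^ 2 := by
  set A := ∫ τ in (0 : ℝ)..w, k τ * h τ with hA
  have h1 : ∫ τ in (0 : ℝ)..w, (2 * (A / w) * (k τ * h τ) - (A / w) ^ 2) ≤
      ∫ τ in (0 : ℝ)..w, h τ ^ 2 := by
    refine integral_mono_on hw.le (Continuous.intervalIntegrable (by fun_prop) _ _)
      (Continuous.intervalIntegrable (by fun_prop) _ _) fun τ hτ => ?_
    have e1 : k τ ^ 2 ≤ 1 := by have := abs_le.1 (hk1 τ hτ); nlinarith
    nlinarith [sq_nonneg (k τ * h τ - A / w), mul_le_mul_of_nonneg_right e1 (sq_nonneg (h τ))]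
  rw [integral_sub (Continuous.intervalIntegrable (by fun_prop) _ _) (by simp), integral_const_mul,
    ← hA, integral_const, sub_zero, smul_eq_mul] at h1
  have e : A ^ 2 = w * (2 * (A / w) * A - w * (A / w) ^ 2) := by field_simp; ring
  rw [e]
  exact mul_le_mul_of_nonneg_left h1 hw.le

end Vale.Agent.P184.An
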