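import Vale.Agent.P184.Iface
import Vale.Agent.P184.An.Par
import Vale.Agent.P184.An.Win

/-! The index set `ℤ × Fin (k+1)`: order, predecessor, Abel summation, periodisation. -/

namespace Vale.Agent.P184.An

open Finset

variable {G : Type*} [Group G] {k : ℕ}

/-- position in the lexicographic order -/
def ps (p : ℤ × Fin (k + 1)) : ℤ := (Int.divModEquiv (k + 1)).symm p

theorem ps_def (p : ℤ × Fin (k + 1)) : ps p = p.1 * (k + 1) + (p.2 : ℕ) := by
  simp [ps]

theorem ps_inj : Function.Injective (ps : ℤ × Fin (k + 1) → ℤ) :=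
  (Int.divModEquiv (k + 1)).symm.injective

/-- predecessor in the lexicographic order -/
def pd (k : ℕ) : ℤ × Fin (k + 1) ≃ ℤ × Fin (k + 1) :=
  (Int.divModEquiv (k + 1)).symm.trans ((Equiv.subRight 1).trans (Int.divModEquiv (k + 1)))

theorem ps_pd (p : ℤ × Fin (k + 1)) : ps (pd k p) = ps p - 1 := by
  simp only [ps, pd, Equiv.trans_apply, Equiv.symm_apply_apply, Equiv.subRight_apply]

theorem pd_zero (q : ℤ) : pd k (q, 0) = (q - 1, Fin.last k) := by
  apply ps_inj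
  rw [ps_pd, ps_def, ps_def]
  simp only [Fin.val_zero, Fin.val_last]
  push_cast
  ring

theorem pd_succ (q : ℤ) (j : Fin k) : pd k (q, j.succ) = (q, j.castSucc) := by
  apply ps_inj
  rw [ps_pd, ps_def, ps_def]
  simp only [Fin.val_succ, Fin.val_castSucc]
  push_cast
  ring

theorem nxt_pd (s : Fin (k + 1) → ℝ) (p : ℤ × Fin (k + 1)) :
    ((pd k p).1 : ℝ) + nxt s (pd k p).2 = p.1 + s p.2 := by
  obtain ⟨q, i⟩ := p
  refine Fin.cases ?_ (fun j => ?_) i
  · rw [pd_zero]; simp only [nxt_last]; push_cast; ring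
  · rw [pd_succ]; simp only [nxt_castSucc]

theorem X_pd (g : G) (x : Fin (k + 1) → G) (p : ℤ × Fin (k + 1)) :
    g ^ (pd k p).1 * x (pd k p).2 = g ^ p.1 * rot g x p.2 := by
  obtain ⟨q, i⟩ := p
  refine Fin.cases ?_ (fun j => ?_) i
  · rw [pd_zero]; simp only [rot_zero, zpow_sub_one, mul_assoc]
  · rw [pd_succ]; simp only [rot_succ]

theorem rotS_pd (s : Fin (k + 1) → ℝ) (p : ℤ × Fin (k + 1)) :
    ((pd k p).1 : ℝ) + s (pd k p).2 = p.1 + rotS s p.2 := by
  obtain ⟨q, i⟩ := p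
  refine Fin.cases ?_ (fun j => ?_) i
  · rw [pd_zero]; simp only [rotS_zero]; push_cast; ring
  · rw [pd_succ]; simp only [rotS_succ]

theorem nxt_rotS_pd (s : Fin (k + 1) → ℝ) (p : ℤ × Fin (k + 1)) :
    ((pd k p).1 : ℝ) + nxt s (pd k p).2 = p.1 + nxt (rotS s) p.2 := by
  obtain ⟨q, i⟩ := p
  refine Fin.cases ?_ (fun j => ?_) i
  · rw [pd_zero]; simp only [nxt_rotS_zero]; push_cast; ring
  · rw [pd_succ]; simp only [nxt_rotS_succ]

theorem ps_lt_of_lt {p p' : ℤ × Fin (k + 1)} (h : p.1 < p'.1) : ps p < ps p' := by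
  rw [ps_def, ps_def]
  have h1 : ((p.2 : ℕ) : ℤ) < k + 1 := by exact_mod_cast p.2.2
  have h2 : (0 : ℤ) ≤ ((p'.2 : ℕ) : ℤ) := by positivity
  have h3 : (p.1 + 1) * ((k : ℤ) + 1) ≤ p'.1 * (k + 1) :=
    mul_le_mul_of_nonneg_right h (by positivity)
  linarith

theorem time_mono {s : Fin (k + 1) → ℝ} (hs : s ∈ Dl k) {p p' : ℤ × Fin (k + 1)}
    (h : ps p ≤ ps p') : (p.1 : ℝ) + s p.2 ≤ p'.1 + s p'.2 := by
  have key : Monotone fun n : ℤ =>
      ((Int.divModEquiv (k + 1) n).1 : ℝ) + s (Int.divModEquiv (k + 1) n).2 := by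
    refine monotone_int_of_le_succ fun n => ?_
    have e : Int.divModEquiv (k + 1) n = pd k (Int.divModEquiv (k + 1) (n + 1)) := by
      apply ps_inj
      rw [ps_pd]
      simp only [ps, Equiv.symm_apply_apply, add_sub_cancel_right]
    rw [← nxt_pd s (Int.divModEquiv (k + 1) (n + 1)), ← e]
    have := hs (Int.divModEquiv (k + 1) n).2
    unfold dur at this
    linarith
  simpa only [ps, Equiv.apply_symm_apply] using key h

/-- indicator of the indices up to `p0` -/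
noncomputable def cut (p0 p : ℤ × Fin (k + 1)) : ℝ := if ps p ≤ ps p0 then 1 else 0

theorem cut_pd (p0 p : ℤ × Fin (k + 1)) :
    cut p0 (pd k p) - cut p0 p = if pd k p = p0 then 1 else 0 := by
  simp only [← ps_inj.eq_iff, cut, ps_pd]
  split_ifs <;> first | omega | simp

/-- a profile going from one to zero -/
def Prof (f : ℝ → ℝ) : Prop := (∀ y ≤ -1, f y = 1) ∧ ∀ y, 1 ≤ y → f y = 0

theorem abs_nxt_le (s : Fin (k + 1) → ℝ) (i : Fin (k + 1)) : |nxt s i| ≤ ‖s‖ + 1 := by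
  unfold nxt extN
  split_ifs with h
  · exact (norm_le_pi_norm s _).trans (by linarith)
  · have h1 : |s 0| ≤ ‖s‖ := norm_le_pi_norm s 0
    have h2 := abs_add_le (s 0) 1
    rw [abs_one] at h2
    linarith

theorem exists_box (k : ℕ) (A : ℝ) : ∃ U : Finset (ℤ × Fin (k + 1)),
    ∀ p ∉ U, (p.1 : ℝ) < -A ∨ A < p.1 := by
  refine ⟨Icc (-⌈A⌉) ⌈A⌉ ×ˢ univ, fun p hp => ?_⟩
  have h := Int.le_ceil A
  simp only [mem_product, mem_Icc, mem_univ, and_true, not_and_or, not_le] at hp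
  rcases hp with hp | hp
  · left
    have : (p.1 : ℝ) < -⌈A⌉ := by exact_mod_cast hp
    linarith
  · right
    have : ((⌈A⌉ : ℤ) : ℝ) < p.1 := by exact_mod_cast hp
    linarith

namespace Prof

variable {f : ℝ → ℝ}

theorem jump_zero (hf : Prof f) (p0 : ℤ × Fin (k + 1)) (R : ℝ) :
    ∃ U : Finset (ℤ × Fin (k + 1)), ∀ s : Fin (k + 1) → ℝ, ‖s‖ < R → ∀ p ∉ U,
      f (p.1 + s p.2) - cut p0 p = 0 := by
  obtain ⟨U, hU⟩ := exists_box k (R + 1 + |(p0.1 : ℝ)|)
  refine ⟨U, fun s hs p hp => ?_⟩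
  have h1 : |s p.2| ≤ ‖s‖ := norm_le_pi_norm s p.2
  obtain ⟨h2, h3⟩ := abs_le.1 h1
  have h4 := le_abs_self (p0.1 : ℝ)
  have h5 := neg_abs_le (p0.1 : ℝ)
  have h6 := norm_nonneg s
  have h7 := abs_nonneg (p0.1 : ℝ)
  rcases hU p hp with h | h
  · have : p.1 < p0.1 := by exact_mod_cast (show (p.1 : ℝ) < p0.1 by linarith)
    rw [hf.1 _ (by linarith), cut, if_pos (ps_lt_of_lt this).le, sub_self]
  · have : p0.1 < p.1 := by exact_mod_cast (show (p0.1 : ℝ) < p.1 by linarith)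
    rw [hf.2 _ (by linarith), cut, if_neg (ps_lt_of_lt this).not_ge, sub_self]

theorem wt_zero (hf : Prof f) (k : ℕ) (R : ℝ) :
    ∃ U : Finset (ℤ × Fin (k + 1)), ∀ s : Fin (k + 1) → ℝ, ‖s‖ < R → ∀ p ∉ U,
      f (p.1 + s p.2) - f (p.1 + nxt s p.2) = 0 := by
  obtain ⟨U, hU⟩ := exists_box k (R + 2)
  refine ⟨U, fun s hs p hp => ?_⟩
  have h1 : |s p.2| ≤ ‖s‖ := norm_le_pi_norm s p.2
  obtain ⟨h2, h3⟩ := abs_le.1 h1
  obtain ⟨h4, h5⟩ := abs_le.1 (abs_nxt_le s p.2)
  rcases hU p hp with h | h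
  · rw [hf.1 _ (by linarith), hf.1 _ (by linarith), sub_self]
  · rw [hf.2 _ (by linarith), hf.2 _ (by linarith), sub_self]

theorem summable_jump (hf : Prof f) (p0 : ℤ × Fin (k + 1)) (s : Fin (k + 1) → ℝ)
    (φ : ℤ × Fin (k + 1) → ℝ) : Summable fun p => (f (p.1 + s p.2) - cut p0 p) * φ p := by
  obtain ⟨U, hU⟩ := hf.jump_zero p0 (‖s‖ + 1)
  exact summable_of_ne_finset_zero (s := U) fun p hp => by
    rw [hU s (by linarith) p hp, zero_mul]

theorem summable_wt (hf : Prof f) (s : Fin (k + 1) → ℝ) (φ : ℤ × Fin (k + 1) → ℝ) :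
    Summable fun p => (f (p.1 + s p.2) - f (p.1 + nxt s p.2)) * φ p := by
  obtain ⟨U, hU⟩ := hf.wt_zero k (‖s‖ + 1)
  exact summable_of_ne_finset_zero (s := U) fun p hp => by
    rw [hU s (by linarith) p hp, zero_mul]

/-- Abel summation -/
theorem abel (hf : Prof f) (s : Fin (k + 1) → ℝ) (φ : ℤ × Fin (k + 1) → ℝ)
    (p0 : ℤ × Fin (k + 1)) :
    ∑' p : ℤ × Fin (k + 1), (f (p.1 + s p.2) - f (p.1 + nxt s p.2)) * φ p =
      φ p0 + ∑' p : ℤ × Fin (k + 1), (f (p.1 + s p.2) - cut p0 p) * (φ p - φ (pd k p)) := by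
  have h1 := (hf.summable_jump p0 s φ).hasSum
  have h2 := (hf.summable_jump p0 s fun p => φ (pd k p)).hasSum
  have h3 : HasSum (fun p => (if p = p0 then 1 else 0) * φ p) (φ p0) := by
    have := hasSum_single (f := fun p => (if p = p0 then (1 : ℝ) else 0) * φ p) p0
      fun p hp => by simp [hp]
    simpa using this
  have h4 := ((pd k).hasSum_iff.2 h1).sub h2
  have h5 := h4.add ((pd k).hasSum_iff.2 h3)
  have h6 := (h1.sub h2).tsum_eq
  rw [← (pd k).tsum_eq]
  simp only [mul_sub]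
  rw [h6, add_comm (φ p0), ← h5.tsum_eq]
  refine tsum_congr fun p => ?_
  simp only [Function.comp_apply, nxt_pd, ← cut_pd]
  ring

theorem hasSum_one (hf : Prof f) (s : Fin (k + 1) → ℝ) :
    HasSum (fun p : ℤ × Fin (k + 1) => f (p.1 + s p.2) - f (p.1 + nxt s p.2)) 1 := by
  have h1 := hf.abel s (fun _ => 1) (0, 0)
  have h2 := (hf.summable_wt s fun _ => 1).hasSum
  rw [h1] at h2
  simpa using h2

end Prof

theorem hasSum_fract {E : Type} [NormedAddCommGroup E] [NormedSpace ℝ E] {H : ℝ → ℝ}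
    (hH : ∀ y, y ≤ 0 ∨ 1 ≤ y → H y = 0) (s : Fin (k + 1) → ℝ) (ψ : ℤ × Fin (k + 1) → E) :
    HasSum (fun p : ℤ × Fin (k + 1) => H (-(p.1 + s p.2)) • ψ p)
      (∑ i, H (Int.fract (-s i)) • ψ (⌊-s i⌋, i)) := by
  have h := hasSum_sum_of_ne_finset_zero
    (f := fun p : ℤ × Fin (k + 1) => H (-(p.1 + s p.2)) • ψ p) (L := SummationFilter.unconditional _)
    (s := univ.map ⟨fun i => (⌊-s i⌋, i), fun a b h => congrArg Prod.snd h⟩) fun p hp => by
      rw [hH, zero_smul]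
      by_contra hc
      push Not at hc
      apply hp
      rw [mem_map]
      refine ⟨p.2, mem_univ _, Prod.ext ?_ rfl⟩
      show ⌊-s p.2⌋ = p.1
      rw [Int.floor_eq_iff]
      constructor <;> linarith [hc.1, hc.2]
  rw [sum_map] at h
  have e : ∀ i, -(((⌊-s i⌋ : ℤ) : ℝ) + s i) = Int.fract (-s i) := fun i => by
    rw [Int.fract]; ring
  simp only [← e]
  exact h

theorem cont_fract {H : ℝ → ℝ} (hc : Continuous H) (hH : ∀ y, y ≤ 0 ∨ 1 ≤ y → H y = 0) (y : ℝ) :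
    Continuous fun t => H (Int.fract (-(y + t))) :=
  (hc.continuousOn.comp_fract'' (by rw [hH 0 (Or.inl le_rfl), hH 1 (Or.inr le_rfl)])).comp
    (by fun_prop : Continuous fun t => -(y + t))

theorem win_fract {H : ℝ → ℝ} (hc : Continuous H) {B M : ℝ} (hM : 1 ≤ M) (hB : ∀ y, H y ≤ B)
    (hH : ∀ y, y ≤ 0 ∨ 1 / M ≤ y → H y = 0) (y : ℝ) :
    Win (fun t => H (Int.fract (-(y + t)))) (B / M) := by
  have hM' : 1 / M ≤ 1 := by rw [div_le_one (by linarith)]; exact hM
  have hM0 : 0 ≤ 1 / M := by positivity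
  have hp : Function.Periodic (fun t => H (Int.fract (-(y + t)))) 1 := fun t => by
    show H (Int.fract (-(y + (t + 1)))) = _
    rw [show -(y + (t + 1)) = -(y + t) - 1 by ring, Int.fract_sub_one]
  intro t0
  rw [hp.intervalIntegral_add_eq t0 (-y - 1),
    intervalIntegral.integral_congr (g := fun t => H (-y - t)), intervalIntegral.integral_comp_sub_left,
    show -y - (-y - 1 + 1) = 0 by ring, show -y - (-y - 1) = 1 by ring,
    ← intervalIntegral.integral_add_adjacent_intervals (b := 1 / M) (hc.intervalIntegrable _ _)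
      (hc.intervalIntegrable _ _),
    intervalIntegral.integral_congr (a := 1 / M) (g := fun _ => 0)]
  · have := intervalIntegral.integral_mono_on (μ := MeasureTheory.volume) hM0
      (hc.intervalIntegrable _ _) (continuous_const.intervalIntegrable _ _) fun t _ => hB t
    simp only [intervalIntegral.integral_const, sub_zero, smul_eq_mul, mul_zero, add_zero] at this ⊢
    refine this.trans (le_of_eq ?_)
    ring
  · intro t ht
    rw [Set.uIcc_of_le hM'] at ht
    exact hH t (Or.inr ht.1)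
  · intro t ht
    rw [Set.uIcc_of_le (by linarith)] at ht
    show H (Int.fract (-(y + t))) = H (-y - t)
    rw [show -(y + t) = -y - t by ring]
    rcases eq_or_lt_of_le (show -y - t ≤ 1 by linarith [ht.1]) with h | h
    · rw [h, Int.fract_one, hH 0 (Or.inl le_rfl), hH 1 (Or.inr hM')]
    · rw [Int.fract_eq_self.2 ⟨by linarith [ht.2], h⟩]

theorem Win.sum {ι : Type*} (S : Finset ι) {h : ι → ℝ → ℝ} {ρ : ι → ℝ}
    (hc : ∀ i, Continuous (h i)) (hW : ∀ i, Win (h i) (ρ i)) :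
    Win (fun t => ∑ i ∈ S, h i t) (∑ i ∈ S, ρ i) := fun t0 => by
  rw [intervalIntegral.integral_finsetSum fun i _ => (hc i).intervalIntegrable _ _]
  exact sum_le_sum fun i _ => hW i t0

theorem shift_mem {s : Fin (k + 1) → ℝ} (t : ℝ) : dur (s + t • (1 : Fin (k + 1) → ℝ)) = dur s := by
  rw [← dur_shift s t]
  congr 1
  funext i
  simp

end Vale.Agent.P184.An
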