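import Mathlib

/-! The convex potential `log (V1 + ∑ ph (a b))` and its gradient (pointwise inequalities).

Plan (task Pot).  All functions have finite support, so replace every `tsum` by a sum over one
finite set `U` containing the supports (`tsum_eq_sum`; `ph 0 = ph1 0 = ph2 0 = 0`).
* `ph ≥ 0`; for `0 ≤ x`: `0 ≤ ph1 x ≤ ph2 x`; `ph2 = ph + x^2/2`, `∑ a^2/2 ≤ c W/2 ≤ V1`.
* `ph1 x * (exp δ - 1) ≤ ph (x+δ) - ph x` for all real `x δ` (because `ph2 - ph1 = exp(-x) - 1 + x ≥ 0`,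
  so `y ↦ ph1 y * exp (-y)` is monotone; then look at the sign of the derivative in `δ`).
* tangent: Jensen `exp (∑ m δ) ≤ ∑ m exp δ + (1 - ∑ m)` (or: `exp` tangent line at `z = ∑ m δ`),
  multiply by `S a`.
* `le_log`: `S ≥ V1 + ph (a b) ≥ cosh (a b) ≥ exp (a b)/2`.
* `log_le`: `ph x ≤ x^2/2 * (cosh x - 1) ≤ x^2/2 * (exp B - 1)`, so `S ≤ V1 * exp B`.
* `rec_log`: put `a' = rec a`, `m = gm a`. `tri` gives `a' u ≥ m·a + |m| (a u - c) ≥ m·a + a u - c`.
  `tangent` at `0` gives `m·a ≥ log S a - log V1`. Apply `log_le` with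
  `B = log S a' + log 2 - m·a + c` (it bounds every `a u` by `le_log` for `a'`).
* `dm`: `|∑ dm f| ≤ |∑ gn α f| + |∑ gm f| |∑ gm α|`, `gm ≤ gn`, `∑ gn ≤ 1`, Cauchy-Schwarz.
-/

namespace Vale.Agent.P184.An

open Finset

/-- a truncated distance kernel -/
structure Ker (G : Type*) [Group G] where
  F : G → G → ℝ
  c : ℝ
  W : ℝ
  nonneg : ∀ x b, 0 ≤ F x b
  le : ∀ x b, F x b ≤ c
  inv : ∀ h x b, F (h * x) (h * b) = F x b
  tri : ∀ x u u', F x u + F x u' ≤ c + F u u'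
  fin : ∀ x, (Function.support (F x)).Finite
  sum_le : ∀ (x : G) (U : Finset G), ∑ b ∈ U, F x b ≤ W

noncomputable def ph (x : ℝ) : ℝ := Real.cosh x - 1 - x ^ 2 / 2
noncomputable def ph1 (x : ℝ) : ℝ := Real.sinh x - x
noncomputable def ph2 (x : ℝ) : ℝ := Real.cosh x - 1

@[simp] theorem ph_zero : ph 0 = 0 := by simp [ph]
@[simp] theorem ph1_zero : ph1 0 = 0 := by simp [ph1]
@[simp] theorem ph2_zero : ph2 0 = 0 := by simp [ph2]

theorem ph_nonneg (x : ℝ) : 0 ≤ ph x := by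
  have := sum_le_hasSum (range 2) (fun n _ => by rw [pow_mul]; positivity) (Real.hasSum_cosh x)
  simp [sum_range_succ] at this
  unfold ph; linarith

theorem ph1_nonneg {x : ℝ} (hx : 0 ≤ x) : 0 ≤ ph1 x := sub_nonneg.2 (Real.self_le_sinh_iff.2 hx)

theorem ph1_le_ph2 (x : ℝ) : ph1 x ≤ ph2 x := by
  have := Real.add_one_le_exp (-x)
  rw [← Real.cosh_sub_sinh] at this
  unfold ph1 ph2; linarith

theorem ph_le (x : ℝ) : ph x ≤ x ^ 2 / 2 * ph2 x := by
  have h1 := (hasSum_nat_add_iff' 2).2 (Real.hasSum_cosh x)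
  have h2 := ((hasSum_nat_add_iff' 1).2 (Real.hasSum_cosh x)).mul_left (x ^ 2 / 2)
  have := hasSum_le (fun n : ℕ => by
    have e : ((2 * (n + 2)).factorial : ℝ) =
        (2 * n + 4) * ((2 * n + 3) * (2 * (n + 1)).factorial) := by
      rw [show 2 * (n + 2) = 2 * (n + 1) + 1 + 1 by ring, Nat.factorial_succ, Nat.factorial_succ]
      push_cast; ring
    have p : (0 : ℝ) < (2 * (n + 1)).factorial := by exact_mod_cast Nat.factorial_pos _
    have q : 0 ≤ x ^ (2 * (n + 2)) := by rw [pow_mul]; positivity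
    have hn : (0 : ℝ) ≤ n := Nat.cast_nonneg n
    rw [e, div_mul_div_comm, ← pow_add, show 2 + 2 * (n + 1) = 2 * (n + 2) by ring]
    exact div_le_div_of_nonneg_left q (by positivity) 
      (by nlinarith [mul_nonneg hn p.le, mul_nonneg hn (mul_nonneg hn p.le)])) h1 h2
  simp [sum_range_succ] at this
  unfold ph ph2; linarith

theorem ph_tangent (x δ : ℝ) : ph1 x * (Real.exp δ - 1) ≤ ph (x + δ) - ph x := by
  have d1 : ∀ y, HasDerivAt (fun y => ph1 y * Real.exp (-y))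
      ((ph2 y - ph1 y) * Real.exp (-y)) y := fun y =>
    (((Real.hasDerivAt_sinh y).sub (hasDerivAt_id y)).mul
      (hasDerivAt_neg y).exp).congr_deriv (by simp [ph1, ph2]; ring)
  have m : Monotone (fun y => ph1 y * Real.exp (-y)) := monotone_of_hasDerivAt_nonneg d1
    (fun y => mul_nonneg (sub_nonneg.2 (ph1_le_ph2 y)) (Real.exp_pos _).le)
  have d2 : ∀ t, HasDerivAt (fun t => ph (x + t) - ph1 x * Real.exp t)
      (Real.exp (x + t) * (ph1 (x + t) * Real.exp (-(x + t)) - ph1 x * Real.exp (-x))) t := by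
    intro t
    have h0 : HasDerivAt (fun t => x + t) 1 t := (hasDerivAt_id t).const_add x
    refine ((((h0.cosh.sub_const 1).sub ((h0.pow 2).div_const 2))).sub
      ((Real.hasDerivAt_exp t).const_mul (ph1 x))).congr_deriv ?_
    have e1 : Real.exp (x + t) * Real.exp (-(x + t)) = 1 := by rw [← Real.exp_add]; simp
    have e2 : Real.exp (x + t) * Real.exp (-x) = Real.exp t := by rw [← Real.exp_add]; simp
    simp only [ph1]
    linear_combination (x + t - Real.sinh (x + t)) * e1 + (Real.sinh x - x) * e2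
  have c : Continuous (fun t => ph (x + t) - ph1 x * Real.exp t) :=
    continuous_iff_continuousAt.2 fun t => (d2 t).continuousAt
  rcases lt_trichotomy δ 0 with h | rfl | h
  · obtain ⟨t, ht, e⟩ := exists_hasDerivAt_eq_slope _ _ h c.continuousOn (fun t _ => d2 t)
    have := mul_nonpos_of_nonneg_of_nonpos (Real.exp_pos (x + t)).le
      (sub_nonpos.2 (m (show x + t ≤ x by linarith [ht.2])))
    rw [e, div_nonpos_iff] at this
    simp only [add_zero, Real.exp_zero] at this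
    rcases this with h1 | h1 <;> linarith [h1.1, h1.2]
  · simp
  · obtain ⟨t, ht, e⟩ := exists_hasDerivAt_eq_slope _ _ h c.continuousOn (fun t _ => d2 t)
    have := mul_nonneg (Real.exp_pos (x + t)).le
      (sub_nonneg.2 (m (show x ≤ x + t by linarith [ht.1])))
    rw [e, div_nonneg_iff] at this
    simp only [add_zero, Real.exp_zero] at this
    rcases this with h1 | h1 <;> linarith [h1.1, h1.2]

variable {G : Type*} [Group G]

namespace Ker

variable (K : Ker G)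

def V1 : ℝ := 1 + K.c ^ 2 + K.c * K.W

/-- partition function -/
noncomputable def S (a : G → ℝ) : ℝ := K.V1 + ∑' b, ph (a b)

/-- gradient of `log S` -/
noncomputable def gm (a : G → ℝ) (b : G) : ℝ := ph1 (a b) / K.S a

/-- diagonal part of the Hessian of `log S` -/
noncomputable def gn (a : G → ℝ) (b : G) : ℝ := ph2 (a b) / K.S a

/-- derivative of `gm` in the direction `α` -/
noncomputable def dm (a α : G → ℝ) (b : G) : ℝ :=
  K.gn a b * α b - K.gm a b * ∑' x, K.gm a x * α x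

/-- recentring -/
noncomputable def rc (a : G → ℝ) (b : G) : ℝ := ∑' x, K.gm a x * K.F x b

/-- admissible functions -/
structure Adm (a : G → ℝ) : Prop where
  fin : (Function.support a).Finite
  nonneg : ∀ b, 0 ≤ a b
  tri : ∀ u u', a u + a u' ≤ K.c + K.F u u'
  sum_le : ∀ U : Finset G, ∑ b ∈ U, a b ≤ K.W

theorem c_nonneg : 0 ≤ K.c := (K.nonneg 1 1).trans (K.le 1 1)

theorem W_nonneg : 0 ≤ K.W := by simpa using K.sum_le 1 ∅

theorem one_le_V1 : 1 ≤ K.V1 := by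
  have := mul_nonneg K.c_nonneg K.W_nonneg
  unfold V1; nlinarith [sq_nonneg K.c]

theorem V1_le_S (a : G → ℝ) : K.V1 ≤ K.S a :=
  le_add_of_nonneg_right (tsum_nonneg fun _ => ph_nonneg _)

theorem S_pos (a : G → ℝ) : 0 < K.S a := by linarith [K.one_le_V1, K.V1_le_S a]

variable {K} {a : G → ℝ}

theorem Adm.le (ha : K.Adm a) (b : G) : a b ≤ K.c := by linarith [ha.tri b b, K.le b b]

theorem Adm.gm_nonneg (ha : K.Adm a) (b : G) : 0 ≤ K.gm a b :=
  div_nonneg (ph1_nonneg (ha.nonneg b)) (K.S_pos a).le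

theorem Adm.gm_le_gn (_ha : K.Adm a) (b : G) : K.gm a b ≤ K.gn a b :=
  div_le_div_of_nonneg_right (ph1_le_ph2 _) (K.S_pos a).le

theorem S_eq {U : Finset G} (hU : ∀ x ∉ U, a x = 0) : K.S a = K.V1 + ∑ b ∈ U, ph (a b) := by
  rw [S, tsum_eq_sum (fun b hb => by rw [hU b hb, ph_zero])]

theorem tsum_gm {U : Finset G} (hU : ∀ x ∉ U, a x = 0) (f : G → ℝ) :
    ∑' x, K.gm a x * f x = ∑ x ∈ U, K.gm a x * f x :=
  tsum_eq_sum (fun b hb => by simp [gm, hU b hb])

omit [Group G] in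
theorem exists_sup (h : (Function.support a).Finite) (U : Finset G) :
    ∃ U' : Finset G, U ⊆ U' ∧ ∀ x ∉ U', a x = 0 := by
  classical
  exact ⟨U ∪ h.toFinset, subset_union_left, fun x hx => by
    by_contra h0
    exact hx (mem_union_right _ (h.mem_toFinset.2 h0))⟩

theorem Adm.sum_ph_le (ha : K.Adm a) (U : Finset G) : K.V1 + ∑ b ∈ U, ph (a b) ≤ K.S a := by
  obtain ⟨U', h1, h2⟩ := exists_sup ha.fin U
  rw [S_eq h2]
  linarith [sum_le_sum_of_subset_of_nonneg h1 (fun b _ _ => ph_nonneg (a b))]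

theorem Adm.sum_sq_le (ha : K.Adm a) (U : Finset G) : ∑ b ∈ U, a b ^ 2 / 2 ≤ K.V1 := by
  have h1 : ∑ b ∈ U, a b ^ 2 / 2 ≤ ∑ b ∈ U, K.c * a b := sum_le_sum fun b _ => by
    nlinarith [ha.nonneg b, ha.le b]
  rw [← mul_sum] at h1
  have h2 := mul_le_mul_of_nonneg_left (ha.sum_le U) K.c_nonneg
  unfold V1; nlinarith [sq_nonneg K.c]

theorem Adm.sum_gn_le (ha : K.Adm a) (U : Finset G) : ∑ b ∈ U, K.gn a b ≤ 1 := by
  simp only [gn, ← sum_div]
  rw [div_le_one (K.S_pos a)]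
  have : ∑ b ∈ U, ph2 (a b) = ∑ b ∈ U, ph (a b) + ∑ b ∈ U, a b ^ 2 / 2 := by
    rw [← sum_add_distrib]
    exact sum_congr rfl fun b _ => by unfold ph ph2; ring
  linarith [ha.sum_ph_le U, ha.sum_sq_le U]

theorem Adm.sum_gm_le (ha : K.Adm a) (U : Finset G) : ∑ b ∈ U, K.gm a b ≤ 1 :=
  (sum_le_sum fun b _ => ha.gm_le_gn b).trans (ha.sum_gn_le U)

theorem Adm.gn_nonneg (ha : K.Adm a) (b : G) : 0 ≤ K.gn a b :=
  (ha.gm_nonneg b).trans (ha.gm_le_gn b)

theorem Adm.tangent (ha : K.Adm a) {a' : G → ℝ} (ha' : (Function.support a').Finite) :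
    Real.log (K.S a) + ∑' b, K.gm a b * (a' b - a b) ≤ Real.log (K.S a') := by
  obtain ⟨U₀, -, h0⟩ := exists_sup ha.fin ∅
  obtain ⟨U, h1, h2⟩ := exists_sup ha' U₀
  have h3 : ∀ x ∉ U, a x = 0 := fun x hx => h0 x fun h => hx (h1 h)
  rw [tsum_gm h3]
  obtain ⟨z, hz⟩ : ∃ z, z = ∑ b ∈ U, K.gm a b * (a' b - a b) := ⟨_, rfl⟩
  have hS := K.S_pos a
  have t : ∀ δ, Real.exp z * (1 + δ - z) ≤ Real.exp δ := fun δ => by
    have := mul_le_mul_of_nonneg_left (Real.add_one_le_exp (δ - z)) (Real.exp_pos z).le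
    rw [← Real.exp_add, add_sub_cancel] at this
    linarith
  have a1 : ∑ b ∈ U, K.S a * (K.gm a b * (Real.exp z * (1 + (a' b - a b) - z) - 1)) ≤
      ∑ b ∈ U, (ph (a' b) - ph (a b)) := sum_le_sum fun b _ => by
    have e1 := ph_tangent (a b) (a' b - a b)
    have e2 := mul_le_mul_of_nonneg_left (sub_le_sub_right (t (a' b - a b)) 1)
      (ph1_nonneg (ha.nonneg b))
    rw [add_sub_cancel] at e1
    rw [gm, ← mul_assoc, mul_div_cancel₀ _ hS.ne']
    linarith
  have a2 : ∑ b ∈ U, K.gm a b * (Real.exp z * (1 + (a' b - a b) - z) - 1) =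
      Real.exp z * z + (Real.exp z * (1 - z) - 1) * ∑ b ∈ U, K.gm a b := by
    have : Real.exp z * z = ∑ b ∈ U, Real.exp z * (K.gm a b * (a' b - a b)) := by
      rw [← mul_sum, ← hz]
    rw [this, mul_sum, ← sum_add_distrib]
    exact sum_congr rfl fun b _ => by ring
  rw [← mul_sum, a2, sum_sub_distrib] at a1
  have a3 := t 0
  rw [Real.exp_zero, add_zero] at a3
  have a4 := mul_le_mul_of_nonpos_left (ha.sum_gm_le U) (sub_nonpos.2 a3)
  have a5 := mul_le_mul_of_nonneg_left a4 hS.le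
  rw [← hz, ← Real.log_exp z, ← Real.log_mul hS.ne' (Real.exp_pos z).ne']
  refine Real.log_le_log (by positivity) ?_
  have e1 := S_eq (K := K) h2
  have e2 := S_eq (K := K) h3
  nlinarith

theorem Adm.le_log (ha : K.Adm a) (b : G) : a b - Real.log 2 ≤ Real.log (K.S a) := by
  have h1 := ha.sum_ph_le {b}
  rw [sum_singleton] at h1
  rw [← Real.log_exp (a b), ← Real.log_div (Real.exp_pos _).ne' two_ne_zero]
  refine Real.log_le_log (by positivity) (le_trans ?_ h1)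
  have h2 := mul_nonneg K.c_nonneg K.W_nonneg
  have h3 := Real.exp_pos (-a b)
  have h4 := pow_le_pow_left₀ (ha.nonneg b) (ha.le b) 2
  rw [ph, Real.cosh_eq, V1]
  nlinarith [sq_nonneg (a b)]

theorem Adm.log_le (ha : K.Adm a) {B : ℝ} (hB : ∀ b, a b ≤ B) :
    Real.log (K.S a) ≤ Real.log K.V1 + B := by
  obtain ⟨U, -, h0⟩ := exists_sup ha.fin ∅
  have hV : 0 < K.V1 := by linarith [K.one_le_V1]
  rw [← Real.log_exp B, ← Real.log_mul hV.ne' (Real.exp_pos B).ne']
  refine Real.log_le_log (K.S_pos a) ?_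
  have h1 : ∑ b ∈ U, ph (a b) ≤ ∑ b ∈ U, a b ^ 2 / 2 * (Real.exp B - 1) :=
    sum_le_sum fun b _ => (ph_le _).trans (mul_le_mul_of_nonneg_left (by
      have e1 := Real.exp_le_exp.2 (hB b)
      have e2 := Real.exp_le_exp.2 (show -a b ≤ B by linarith [hB b, ha.nonneg b])
      rw [ph2, Real.cosh_eq]; linarith) (by positivity))
  have h2 : 0 ≤ Real.exp B - 1 :=
    sub_nonneg.2 (Real.one_le_exp ((ha.nonneg 1).trans (hB 1)))
  have h3 := mul_le_mul_of_nonneg_right (ha.sum_sq_le U) h2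
  rw [← sum_mul] at h1
  rw [S_eq h0]
  linarith

theorem Adm.rc (ha : K.Adm a) : K.Adm (K.rc a) := by
  obtain ⟨U, -, h0⟩ := exists_sup ha.fin ∅
  have e : ∀ b, K.rc a b = ∑ x ∈ U, K.gm a x * K.F x b := fun b => tsum_gm h0 _
  refine ⟨(U.finite_toSet.biUnion fun x _ => K.fin x).subset fun b hb => ?_, fun b => ?_,
    fun u u' => ?_, fun V => ?_⟩
  · rw [Function.mem_support, e] at hb
    obtain ⟨x, hx, h⟩ := exists_ne_zero_of_sum_ne_zero hb
    exact Set.mem_biUnion hx (right_ne_zero_of_mul h)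
  · rw [e]; exact sum_nonneg fun x _ => mul_nonneg (ha.gm_nonneg x) (K.nonneg x b)
  · rw [e, e, ← sum_add_distrib]
    refine (sum_le_sum (g := fun x => K.gm a x * (K.c + K.F u u')) fun x _ => ?_).trans ?_
    · rw [← mul_add]; exact mul_le_mul_of_nonneg_left (K.tri x u u') (ha.gm_nonneg x)
    · rw [← sum_mul]
      exact mul_le_of_le_one_left (add_nonneg K.c_nonneg (K.nonneg _ _)) (ha.sum_gm_le U)
  · simp only [e]
    rw [sum_comm]
    refine (sum_le_sum (g := fun x => K.gm a x * K.W) fun x _ => ?_).trans ?_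
    · rw [← mul_sum]; exact mul_le_mul_of_nonneg_left (K.sum_le x V) (ha.gm_nonneg x)
    · rw [← sum_mul]
      exact mul_le_of_le_one_left K.W_nonneg (ha.sum_gm_le U)

theorem Adm.rc_log (ha : K.Adm a) :
    2 * Real.log (K.S a) - 2 * Real.log K.V1 - K.c - Real.log 2 ≤ Real.log (K.S (K.rc a)) := by
  obtain ⟨U, -, h0⟩ := exists_sup ha.fin ∅
  have h1 := ha.tangent (a' := fun _ => 0) (by simp)
  have e0 : K.S (fun _ => 0) = K.V1 := by simp [S]
  rw [tsum_gm h0, e0] at h1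
  simp only [zero_sub, mul_neg, sum_neg_distrib] at h1
  have h2 := ha.log_le (B := Real.log (K.S (K.rc a)) + Real.log 2 - ∑ x ∈ U, K.gm a x * a x + K.c)
    (fun u => by
      have a1 := ha.rc.le_log u
      have a2 : ∑ x ∈ U, (K.gm a x * a x + K.gm a x * (a u - K.c)) ≤ K.rc a u := by
        rw [Ker.rc, tsum_gm h0]
        refine sum_le_sum fun x _ => ?_
        rw [← mul_add]
        exact mul_le_mul_of_nonneg_left (by linarith [ha.tri x u]) (ha.gm_nonneg x)
      rw [sum_add_distrib, ← sum_mul] at a2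
      have a3 := mul_le_mul_of_nonpos_right (ha.sum_gm_le U) (sub_nonpos.2 (ha.le u))
      linarith)
  linarith

theorem tsum_dm {U : Finset G} (hU : ∀ x ∉ U, a x = 0) (α f : G → ℝ) :
    ∑' x, K.dm a α x * f x = ∑ x ∈ U, K.dm a α x * f x :=
  tsum_eq_sum (fun b hb => by simp [dm, gm, gn, hU b hb])

theorem Adm.sum_dm_le (ha : K.Adm a) (α : G → ℝ) {U : Finset G} (hU : ∀ x ∉ U, a x = 0) :
    ∑ x ∈ U, |K.dm a α x| ≤ 2 * ∑ x ∈ U, K.gn a x * |α x| := by
  have h1 : |∑' x, K.gm a x * α x| ≤ ∑ x ∈ U, K.gn a x * |α x| := by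
    rw [tsum_gm hU]
    refine (abs_sum_le_sum_abs _ _).trans (sum_le_sum fun x _ => ?_)
    rw [abs_mul, abs_of_nonneg (ha.gm_nonneg x)]
    exact mul_le_mul_of_nonneg_right (ha.gm_le_gn x) (abs_nonneg _)
  have h2 : ∑ x ∈ U, |K.dm a α x| ≤
      ∑ x ∈ U, (K.gn a x * |α x| + K.gm a x * |∑' x, K.gm a x * α x|) := sum_le_sum fun x _ => by
    refine (abs_sub _ _).trans_eq ?_
    rw [abs_mul, abs_mul, abs_of_nonneg (ha.gm_nonneg x), abs_of_nonneg (ha.gn_nonneg x)]
  rw [sum_add_distrib, ← sum_mul] at h2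
  have h3 := mul_le_of_le_one_left (abs_nonneg (∑' x, K.gm a x * α x)) (ha.sum_gm_le U)
  linarith

theorem Adm.dm_sq (ha : K.Adm a) (α : G → ℝ) (b : G) :
    (∑' x, K.dm a α x * K.F x b) ^ 2 ≤ 4 * K.c ^ 2 * ∑' x, K.gn a x * α x ^ 2 := by
  obtain ⟨U, -, h0⟩ := exists_sup ha.fin ∅
  rw [tsum_dm h0, tsum_eq_sum (s := U) (fun b hb => by simp [gn, h0 b hb])]
  have h1 : |∑ x ∈ U, K.dm a α x * K.F x b| ≤ K.c * (2 * ∑ x ∈ U, K.gn a x * |α x|) := by
    refine (abs_sum_le_sum_abs _ _).trans (le_trans ?_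
      (mul_le_mul_of_nonneg_left (ha.sum_dm_le α h0) K.c_nonneg))
    rw [mul_sum]
    refine sum_le_sum fun x _ => ?_
    rw [abs_mul, abs_of_nonneg (K.nonneg x b), mul_comm]
    exact mul_le_mul_of_nonneg_right (K.le x b) (abs_nonneg _)
  have h2 := sum_sq_le_sum_mul_sum_of_sq_le_mul U (r := fun x => K.gn a x * |α x|)
    (f := fun x => K.gn a x) (g := fun x => K.gn a x * α x ^ 2) (fun x _ => ha.gn_nonneg x)
    (fun x _ => mul_nonneg (ha.gn_nonneg x) (sq_nonneg _))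
    (fun x _ => le_of_eq (by rw [mul_pow, sq_abs]; ring))
  have h3 := mul_le_of_le_one_left (sum_nonneg fun x (_ : x ∈ U) =>
    mul_nonneg (ha.gn_nonneg x) (sq_nonneg (α x))) (ha.sum_gn_le U)
  have h4 := pow_le_pow_left₀ (abs_nonneg _) h1 2
  rw [sq_abs] at h4
  nlinarith [mul_le_mul_of_nonneg_left (h2.trans h3) (sq_nonneg K.c)]

theorem Adm.dm_abs (ha : K.Adm a) (α : G → ℝ) {U' : Finset G} (hU' : ∀ x ∉ U', a x = 0)
    (U : Finset G) :
    ∑ b ∈ U, |∑' x, K.dm a α x * K.F x b| ≤ 2 * K.W * ∑ x ∈ U', |α x| := by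
  simp only [tsum_dm hU']
  refine (sum_le_sum fun b _ => abs_sum_le_sum_abs _ _).trans ?_
  rw [sum_comm]
  refine (sum_le_sum (g := fun x => |K.dm a α x| * K.W) fun x _ => ?_).trans ?_
  · simp only [abs_mul, abs_of_nonneg (K.nonneg x _), ← mul_sum]
    exact mul_le_mul_of_nonneg_left (K.sum_le x U) (abs_nonneg _)
  · have h1 : ∑ x ∈ U', K.gn a x * |α x| ≤ ∑ x ∈ U', |α x| := sum_le_sum fun x _ =>
      mul_le_of_le_one_left (abs_nonneg _) (by simpa using ha.sum_gn_le {x})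
    have h2 := mul_le_mul_of_nonneg_right ((ha.sum_dm_le α hU').trans
      (mul_le_mul_of_nonneg_left h1 zero_le_two)) K.W_nonneg
    rw [← sum_mul]
    linarith

end Ker

end Vale.Agent.P184.An
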