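import Vale.Agent.P184.Iface
import Vale.Agent.P184.An.Par
import Vale.Agent.P184.An.Pot
import Vale.Agent.P184.An.Win
import Vale.Agent.P184.An.Idx

/-! Level zero: the smoothed occupation measure of a twisted loop tested against the kernel.

The loop sits at `g ^ q * x i` during `[q + s i, q + nxt s i)`; `Us M (-y)` is the probability that
a random time in `[-1/M, 0]` is after `y`.

Plan (task BaseA).  It is convenient to order the index set `ℤ × Fin (k+1)` by `Int.divModEquiv`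
(`n = q (k+1) + i`): `X n = g ^ q * x i`, `σ n = q + s i`, `σ (n+1) = q + nxt s i`,
`X (n-1) = g ^ q * rot g x i` (so `l.d (X (n-1)) (X n) = l.n (step g x i)`), `U n = Us M (-σ n)`,
antitone in `n` on `Dl`, `= 1` for `n ≪ 0`, `= 0` for `n ≫ 0`, and `base = ∑ (U n - U (n+1)) F (X n) b`.
* `base_lf`: the family `(s, p) ↦ weight` is `LF` in `p` (`|q| > R + 2 + 1/M` kills it); use
  `LF.contDiff_tsum` and `K.fin`.
* naturality: reindex the `tsum` by an `Equiv` (face: the term `j` vanishes by `nxt_faceS_self`; use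
  `Function.Injective.tsum_eq`/`tsum_eq_tsum_of_ne_zero_bij`).
* `base_adm`: weights are `≥ 0` with total sum `1` (telescoping; only `≤ 1` is needed).
* `base_low`: Abel summation (a shift of the index): for any `n0`,
  `∑ (U n - U (n+1)) φ n = φ n0 + ∑ (U n - 1[n ≤ n0]) (φ n - φ (n-1))`. Take `n0` the greatest with
  `U n0 ≥ 1/2`, `b = X n0`, `|U n - 1[n ≤ n0]| ≤ 2 U n (1 - U n)`, and
  `r t = 2 ∑ i, d i * ∑' q, (U(1-U))(-(q + s i + t))`, where `U(1-U) ≤ 1` lives on `[0,1/M]`.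
-/

namespace Vale.Agent.P184.An

open Finset
open scoped ContDiff

variable {G : Type*} [Group G] {k : ℕ}

noncomputable def Us (M y : ℝ) : ℝ := Real.smoothTransition (M * y)

/-- level zero -/
noncomputable def base (K : Ker G) (M : ℝ) (g : G) (x : Fin (k + 1) → G) (s : Fin (k + 1) → ℝ)
    (b : G) : ℝ :=
  ∑' p : ℤ × Fin (k + 1),
    (Us M (-(p.1 + s p.2)) - Us M (-(p.1 + nxt s p.2))) * K.F (g ^ p.1 * x p.2) b

variable (K : Ker G) {M : ℝ} (g : G)

theorem Us_zero (hM : 1 ≤ M) {y : ℝ} (hy : y ≤ 0) : Us M y = 0 :=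
  Real.smoothTransition.zero_of_nonpos (mul_nonpos_of_nonneg_of_nonpos (by linarith) hy)

theorem Us_one (hM : 1 ≤ M) {y : ℝ} (hy : 1 / M ≤ y) : Us M y = 1 := by
  refine Real.smoothTransition.one_of_one_le ?_
  rwa [div_le_iff₀' (by linarith)] at hy

theorem one_div_le (hM : 1 ≤ M) : 1 / M ≤ 1 := by
  rw [div_le_one (by linarith)]; exact hM

theorem Us_nonneg (y : ℝ) : 0 ≤ Us M y := Real.smoothTransition.nonneg _

theorem Us_le_one (y : ℝ) : Us M y ≤ 1 := Real.smoothTransition.le_one _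

theorem Us_mono (hM : 1 ≤ M) : Monotone (Us M) := fun _ _ h =>
  Real.smoothTransition.monotone (mul_le_mul_of_nonneg_left h (by linarith))

theorem Us_contDiff : ContDiff ℝ ∞ (Us M) :=
  Real.smoothTransition.contDiff.comp (contDiff_const.mul contDiff_id)

theorem prof_Us (hM : 1 ≤ M) : Prof fun y => Us M (-y) :=
  ⟨fun _ hy => Us_one hM (by linarith [one_div_le hM]), fun _ hy => Us_zero hM (by linarith)⟩

theorem jump_lf (hM : 1 ≤ M) (p0 : ℤ × Fin (k + 1)) (Δ : ℤ × Fin (k + 1) → ℝ) :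
    LF fun (s : Fin (k + 1) → ℝ) (p : ℤ × Fin (k + 1)) =>
      (Us M (-(p.1 + s p.2)) - cut p0 p) * Δ p := by
  refine ⟨fun p => ((Us_contDiff.comp (by fun_prop)).sub contDiff_const).mul contDiff_const,
    fun R => ?_⟩
  obtain ⟨U, hU⟩ := (prof_Us hM).jump_zero p0 R
  exact ⟨U, fun s hs p hp => mul_eq_zero_of_left (hU s hs p hp) _⟩

/-- the jump form -/
theorem base_jump (hM : 1 ≤ M) (x : Fin (k + 1) → G) (s : Fin (k + 1) → ℝ) (b : G)
    (p0 : ℤ × Fin (k + 1)) : base K M g x s b = K.F (g ^ p0.1 * x p0.2) b +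
      ∑' p : ℤ × Fin (k + 1), (Us M (-(p.1 + s p.2)) - cut p0 p) *
        (K.F (g ^ p.1 * x p.2) b - K.F (g ^ p.1 * rot g x p.2) b) := by
  have h := (prof_Us hM).abel s (fun p => K.F (g ^ p.1 * x p.2) b) p0
  simp only [X_pd] at h
  exact h

theorem base_lf (hM : 1 ≤ M) (x : Fin (k + 1) → G) : LF (base K M g x) := by
  classical
  refine ⟨fun b => ?_, fun R => ?_⟩
  · simp only [fun s => base_jump K g hM x s b (0, 0)]
    exact contDiff_const.add (jump_lf hM _ _).contDiff_tsum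
  · obtain ⟨U, hU⟩ := (prof_Us hM).wt_zero k R
    refine ⟨U.biUnion fun p => (K.fin (g ^ p.1 * x p.2)).toFinset, fun s hs b hb => ?_⟩
    refine (tsum_congr fun p => ?_).trans tsum_zero
    by_cases hp : p ∈ U
    · have : K.F (g ^ p.1 * x p.2) b = 0 := by
        by_contra h
        exact hb (mem_biUnion.2 ⟨p, hp, by simpa using h⟩)
      rw [this, mul_zero]
    · rw [hU s hs p hp, zero_mul]

theorem base_per (x : Fin (k + 1) → G) (s : Fin (k + 1) → ℝ) (b : G) :
    base K M g x s b = base K M g x (s + 1) (g⁻¹ * b) := by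
  unfold base
  rw [← ((Equiv.addRight (1 : ℤ)).prodCongr (Equiv.refl (Fin (k + 1)))).tsum_eq]
  refine tsum_congr fun p => ?_
  have e1 : nxt (s + 1) p.2 = nxt s p.2 + 1 := nxt_shift s 1 p.2
  have e2 : K.F (g ^ (p.1 + 1) * x p.2) b = K.F (g ^ p.1 * x p.2) (g⁻¹ * b) := by
    rw [← K.inv g⁻¹, add_comm, zpow_one_add, mul_assoc, inv_mul_cancel_left]
  simp only [Equiv.prodCongr_apply, Prod.map_fst, Prod.map_snd, Equiv.coe_addRight,
    Equiv.coe_refl, id_eq, e1, e2, Pi.add_apply, Pi.one_apply]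
  push_cast
  congr 4 <;> ring

theorem base_transl (h : G) (x : Fin (k + 1) → G) (s : Fin (k + 1) → ℝ) (b : G) :
    base K M g x s b = base K M (h * g * h⁻¹) (fun i => h * x i) s (h * b) := by
  unfold base
  refine tsum_congr fun p => ?_
  rw [conj_zpow, ← K.inv h (g ^ p.1 * x p.2) b]
  simp only [mul_assoc, inv_mul_cancel_left]

theorem base_face (x : Fin (k + 2) → G) (j : Fin (k + 2)) (s : Fin (k + 1) → ℝ) (b : G) :
    base K M g (fun i => x (j.succAbove i)) s b = base K M g x (faceS j s) b := by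
  unfold base
  have hi : Function.Injective fun p : ℤ × Fin (k + 1) => (p.1, j.succAbove p.2) :=
    fun p p' h => Prod.ext (Prod.ext_iff.1 h).1
      (Fin.succAbove_right_injective (Prod.ext_iff.1 h).2)
  rw [← hi.tsum_eq]
  · simp only [faceS_succAbove, nxt_faceS_succAbove]
  · rintro ⟨q, i⟩ hp
    rcases Fin.eq_self_or_eq_succAbove j i with rfl | ⟨i', rfl⟩
    · exact absurd (by simp only [nxt_faceS_self, sub_self, zero_mul]) hp
    · exact ⟨(q, i'), rfl⟩

theorem base_rot (x : Fin (k + 1) → G) (s : Fin (k + 1) → ℝ) (b : G) :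
    base K M g x s b = base K M g (rot g x) (rotS s) b := by
  unfold base
  rw [← (pd k).tsum_eq]
  refine tsum_congr fun p => ?_
  rw [X_pd, rotS_pd, nxt_rotS_pd]

theorem base_adm (hM : 1 ≤ M) (x : Fin (k + 1) → G) {s : Fin (k + 1) → ℝ} (hs : s ∈ Dl k) :
    K.Adm (base K M g x s) := by
  have hw : ∀ p : ℤ × Fin (k + 1), 0 ≤ Us M (-(p.1 + s p.2)) - Us M (-(p.1 + nxt s p.2)) := by
    intro p
    have := hs p.2
    unfold dur at this
    exact sub_nonneg.2 (Us_mono hM (by linarith))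
  have hS := (prof_Us hM).summable_wt s
  have h1 : ∀ c : ℝ, ∑' p : ℤ × Fin (k + 1),
      (Us M (-(p.1 + s p.2)) - Us M (-(p.1 + nxt s p.2))) * c = c := fun c => by
    simpa using (((prof_Us hM).hasSum_one s).mul_right c).tsum_eq
  refine ⟨(base_lf K g hM x).finite s,
    fun b => tsum_nonneg fun p => mul_nonneg (hw p) (K.nonneg _ _), fun u u' => ?_, fun U => ?_⟩
  · unfold base
    rw [← (hS _).tsum_add (hS _), ← h1 (K.c + K.F u u')]
    refine ((hS _).add (hS _)).tsum_le_tsum (fun p => ?_) (hS _)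
    rw [← mul_add]
    exact mul_le_mul_of_nonneg_left (K.tri _ _ _) (hw p)
  · unfold base
    rw [← Summable.tsum_finsetSum fun b _ => hS _, ← h1 K.W]
    refine (summable_sum fun b _ => hS _).tsum_le_tsum (fun p => ?_) (hS _)
    rw [← mul_sum]
    exact mul_le_mul_of_nonneg_left (K.sum_le _ _) (hw p)

theorem d_step (l : Len G) (x : Fin (k + 1) → G) (q : ℤ) (i : Fin (k + 1)) :
    l.d (g ^ q * rot g x i) (g ^ q * x i) = l.n (step g x i) := by
  rw [l.d_mul]; rfl

theorem base_low (hM : 1 ≤ M) (l : Len G) {β : ℝ} (hβ : 0 ≤ β) (hd : ∀ x, K.F x x = K.c)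
    (hL : ∀ x x' b, |K.F x b - K.F x' b| ≤ β * l.d x' x) (x : Fin (k + 1) → G)
    {s : Fin (k + 1) → ℝ} (hs : s ∈ Dl k) :
    ∃ r : ℝ → ℝ, Continuous r ∧ ∫ t in (0 : ℝ)..1, r t ≤ 2 * (∑ i, l.n (step g x i)) / M ∧
      ∀ t : ℝ, ∃ b, K.c - β * r t ≤ base K M g x (s + t • 1) b := by
  set H : ℝ → ℝ := fun y => Us M y * (1 - Us M y) with hH
  have hHc : Continuous H := Us_contDiff.continuous.mul (continuous_const.sub Us_contDiff.continuous)
  have hH0 : ∀ y, y ≤ 0 ∨ 1 / M ≤ y → H y = 0 := by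
    rintro y (h | h)
    · simp only [hH, Us_zero hM h, zero_mul]
    · simp only [hH, Us_one hM h, sub_self, mul_zero]
  have hH1 : ∀ y, y ≤ 0 ∨ 1 ≤ y → H y = 0 := fun y h =>
    hH0 y (h.imp_right fun h => (one_div_le hM).trans h)
  have hHB : ∀ y, H y ≤ 1 := fun y => by
    have := Us_nonneg (M := M) y
    have := Us_le_one (M := M) y
    simp only [hH]
    nlinarith
  have hc : ∀ i, Continuous fun t => 2 * l.n (step g x i) * H (Int.fract (-(s i + t))) :=
    fun i => continuous_const.mul (cont_fract hHc hH1 _)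
  refine ⟨fun t => ∑ i, 2 * l.n (step g x i) * H (Int.fract (-(s i + t))),
    continuous_finsetSum _ fun i _ => hc i, ?_, fun t => ?_⟩
  · refine (Win.sum univ hc fun i => (win_fract hHc hM hHB hH0 (s i)).const_mul
      (mul_nonneg zero_le_two (l.nonneg _))).zero_one.trans (le_of_eq ?_)
    rw [mul_sum, sum_div]
    exact sum_congr rfl fun i _ => by ring
  · set s' : Fin (k + 1) → ℝ := s + t • 1 with hs'
    have hD : s' ∈ Dl k := fun i => by rw [hs', shift_mem]; exact hs i
    obtain ⟨U, hU⟩ := (prof_Us hM).jump_zero (0 : ℤ × Fin (k + 1)) (‖s'‖ + 1)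
    have hb1 : ∃ B : ℤ, ∀ n : ℤ,
        (∃ p : ℤ × Fin (k + 1), ps p = n ∧ 1 / 2 ≤ Us M (-(p.1 + s' p.2))) → n ≤ B := by
      obtain ⟨B, hB⟩ := (U.image ps).bddAbove
      refine ⟨max B (ps (0 : ℤ × Fin (k + 1))), ?_⟩
      rintro _ ⟨p, rfl, hp⟩
      by_cases hpU : p ∈ U
      · exact le_max_of_le_left (hB (mem_coe.2 (mem_image_of_mem _ hpU)))
      · have h := hU s' (by linarith) p hpU
        refine le_max_of_le_right ?_
        by_contra hlt
        rw [cut, if_neg hlt] at h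
        linarith
    have hb2 : ∃ n : ℤ, ∃ p : ℤ × Fin (k + 1), ps p = n ∧ 1 / 2 ≤ Us M (-(p.1 + s' p.2)) := by
      refine ⟨_, (-⌈|s' 0|⌉ - 1, 0), rfl, ?_⟩
      have h1 := Int.le_ceil |s' 0|
      have h2 := le_abs_self (s' 0)
      rw [Us_one hM]
      · norm_num
      · refine (one_div_le hM).trans ?_
        push_cast
        linarith
    obtain ⟨n0, ⟨p0, rfl, hp0⟩, hmax⟩ := Int.exists_greatest_of_bdd hb1 hb2
    refine ⟨g ^ p0.1 * x p0.2, ?_⟩
    rw [base_jump K g hM x s' _ p0, hd]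
    have h1 := hasSum_fract hH1 s' fun p => -(2 * β * l.n (step g x p.2))
    have hle : ∀ p : ℤ × Fin (k + 1), H (-(p.1 + s' p.2)) • -(2 * β * l.n (step g x p.2)) ≤
        (Us M (-(p.1 + s' p.2)) - cut p0 p) * (K.F (g ^ p.1 * x p.2) (g ^ p0.1 * x p0.2) -
          K.F (g ^ p.1 * rot g x p.2) (g ^ p0.1 * x p0.2)) := by
      intro p
      have h3 := hL (g ^ p.1 * x p.2) (g ^ p.1 * rot g x p.2) (g ^ p0.1 * x p0.2)
      rw [d_step] at h3
      have h4 : |Us M (-(p.1 + s' p.2)) - cut p0 p| ≤ 2 * H (-(p.1 + s' p.2)) := by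
        have u0 := Us_nonneg (M := M) (-(p.1 + s' p.2))
        have u1 := Us_le_one (M := M) (-(p.1 + s' p.2))
        simp only [hH, cut]
        split_ifs with h
        · have := Us_mono hM (neg_le_neg (time_mono hD h))
          rw [abs_of_nonpos (by linarith)]
          nlinarith
        · have : Us M (-(p.1 + s' p.2)) < 1 / 2 := by
            by_contra h'
            exact h (hmax _ ⟨p, rfl, not_lt.1 h'⟩)
          rw [sub_zero, abs_of_nonneg u0]
          nlinarith
      have h5 := mul_le_mul h4 h3 (abs_nonneg _) ((abs_nonneg _).trans h4)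
      rw [← abs_mul] at h5
      have h6 := neg_le_of_abs_le h5
      rw [smul_eq_mul]
      linarith
    have h2 := hasSum_le hle h1 ((prof_Us hM).summable_jump p0 s' _).hasSum
    have e : ∑ i, H (Int.fract (-s' i)) • -(2 * β * l.n (step g x i)) =
        -(β * ∑ i, 2 * l.n (step g x i) * H (Int.fract (-(s i + t)))) := by
      rw [mul_sum, ← sum_neg_distrib]
      refine sum_congr rfl fun i _ => ?_
      have : s' i = s i + t := by simp [hs']
      rw [this, smul_eq_mul]
      ring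
    rw [e] at h2
    linarith

end Vale.Agent.P184.An
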