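import Vale.Agent.P184.An.Base

/-! Derivative estimates at level zero.

Plan (task BaseB).  With the notation of `Base.lean` (jump form, shift of the index in the second
half of the sum), `W y = d/dy Us M y = M * smoothTransition' (M y)`, `|W| ≤ M * CU`, `W = 0` outside
`(0, 1/M)`, `CU = max 1 (sup |smoothTransition'|)`:
`D base s b v = - ∑' (q,i), W (-(q + s i)) * v i * (F (g^q * x i) b - F (g^q * rot g x i) b)`
(use `LF.hasFDerivAt_tsum`; `nxt` is affine with linear part `v ↦ v (i+1)` cyclically).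
* For each `i` and `y` at most one `q` has `W (-(q + y)) ≠ 0` (as `1 ≤ M`), and for `H ≥ 0`
  continuous, `≤ B`, vanishing outside `[0,1/M]`: `Win (fun t => ∑' q, H (-(q + y + t))) (B / M)`.
* `W2`: Cauchy-Schwarz with `γ i = min 1 (M * dur s i)`:
  `(∑ |v i| d i |W|)^2 ≤ (∑ γ i * 1[W ≠ 0]) (∑ v i^2 d i^2 W^2 / γ i)`, and the first factor is `≤ 2`:
  if `σ n + t ∈ [-1/M, 0]` then `γ n ≤ M (Θ (σ (n+1) + t) - Θ (σ n + t))` with
  `Θ y = max (-1/M) (min y (1/M))` monotone, and these differences telescope to at most `2/M`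
  (for each `i` the sum over `q`; or `∑_i` first: `∑ i, (Θ (q + nxt s i) - Θ (q + s i)) =
  Θ (q + 1 + s 0) - Θ (q + s 0)`).  `1/rho^2 = (1+d)^2/γ ≥ d^2/γ`.
* `W1`: `∑_{b ∈ U} |F x b - F x' b| ≤ 2 K.W`.
-/

namespace Vale.Agent.P184.An

open Finset

/-- derivative of `Us M` -/
noncomputable def Ws (M y : ℝ) : ℝ := M * deriv Real.smoothTransition (M * y)

theorem dst_zero {z : ℝ} (hz : z ≤ 0 ∨ 1 ≤ z) : deriv Real.smoothTransition z = 0 := by
  rcases hz with h | h
  · refine IsLocalMin.deriv_eq_zero (Filter.Eventually.of_forall fun y => ?_)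
    rw [Real.smoothTransition.zero_of_nonpos h]
    exact Real.smoothTransition.nonneg y
  · refine IsLocalMax.deriv_eq_zero (Filter.Eventually.of_forall fun y => ?_)
    rw [Real.smoothTransition.one_of_one_le h]
    exact Real.smoothTransition.le_one y

theorem dst_cont : Continuous (deriv Real.smoothTransition) :=
  (Real.smoothTransition.contDiff (n := 1)).continuous_deriv le_rfl

theorem exists_CU : ∃ C : ℝ, 1 ≤ C ∧ ∀ z, |deriv Real.smoothTransition z| ≤ C := by
  obtain ⟨C, hC⟩ := (isCompact_Icc (a := (0 : ℝ)) (b := 1)).exists_bound_of_continuousOn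
    dst_cont.continuousOn
  refine ⟨max 1 C, le_max_left _ _, fun z => ?_⟩
  by_cases hz : z ∈ Set.Icc (0 : ℝ) 1
  · exact le_max_of_le_right (hC z hz)
  · rw [dst_zero, abs_zero]
    · exact le_max_of_le_left zero_le_one
    · rw [Set.mem_Icc, not_and_or, not_le, not_le] at hz
      exact hz.imp le_of_lt le_of_lt

variable {M : ℝ} {k : ℕ}

theorem Ws_cont : Continuous (Ws M) := continuous_const.mul (dst_cont.comp (by fun_prop))

theorem Ws_zero (hM : 1 ≤ M) (y : ℝ) (hy : y ≤ 0 ∨ 1 / M ≤ y) : Ws M y = 0 := by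
  rw [Ws, dst_zero, mul_zero]
  refine hy.imp (fun h => mul_nonpos_of_nonneg_of_nonpos (by linarith) h) fun h => ?_
  rwa [div_le_iff₀' (by linarith)] at h

theorem Ws_zero' (hM : 1 ≤ M) (y : ℝ) (hy : y ≤ 0 ∨ 1 ≤ y) : Ws M y = 0 :=
  Ws_zero hM y (hy.imp_right fun h => (one_div_le hM).trans h)

theorem hasDerivAt_Us (y : ℝ) : HasDerivAt (Us M) (Ws M y) y := by
  have h1 : HasDerivAt Real.smoothTransition (deriv Real.smoothTransition (M * y)) (M * y) :=
    ((Real.smoothTransition.contDiff (n := 1)).differentiable (by simp) _).hasDerivAt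
  have h2 := h1.comp y ((hasDerivAt_id y).const_mul M)
  rw [mul_one, mul_comm _ M] at h2
  exact h2

theorem D_base {G : Type*} [Group G] (K : Ker G) (g : G) (hM : 1 ≤ M) (x : Fin (k + 1) → G)
    (s : Fin (k + 1) → ℝ) (b : G) (v : Fin (k + 1) → ℝ) :
    D (base K M g x) s b v = -∑ i, Ws M (Int.fract (-s i)) *
      ((K.F (g ^ ⌊-s i⌋ * x i) b - K.F (g ^ ⌊-s i⌋ * rot g x i) b) * v i) := by
  set Δ : ℤ × Fin (k + 1) → ℝ :=
    fun p => K.F (g ^ p.1 * x p.2) b - K.F (g ^ p.1 * rot g x p.2) b with hΔ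
  have h1 := ((jump_lf hM (0, 0) Δ).hasFDerivAt_tsum s).const_add (K.F (g ^ (0 : ℤ) * x 0) b)
  have h2 : ∀ p : ℤ × Fin (k + 1), D (fun (s : Fin (k + 1) → ℝ) (p : ℤ × Fin (k + 1)) =>
      (Us M (-(p.1 + s p.2)) - cut (0, 0) p) * Δ p) s p = Ws M (-(p.1 + s p.2)) •
        (-Δ p • (ContinuousLinearMap.proj p.2 : (Fin (k + 1) → ℝ) →L[ℝ] ℝ)) := by
    intro p
    have h3 : HasFDerivAt (fun s : Fin (k + 1) → ℝ => -((p.1 : ℝ) + s p.2))
        (-(ContinuousLinearMap.proj p.2 : (Fin (k + 1) → ℝ) →L[ℝ] ℝ)) s :=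
      ((hasFDerivAt_apply p.2 s).const_add (p.1 : ℝ)).neg
    have h4 := (((hasDerivAt_Us (M := M) _).comp_hasFDerivAt s h3).sub_const
      (cut (0, 0) p)).mul_const (Δ p)
    refine h4.fderiv.trans ?_
    ext w
    simp
    ring
  simp only [h2] at h1
  rw [(hasSum_fract (Ws_zero' hM) s fun p =>
    -Δ p • (ContinuousLinearMap.proj p.2 : (Fin (k + 1) → ℝ) →L[ℝ] ℝ)).tsum_eq] at h1
  have e : (fun s => base K M g x s b) = _ := funext fun s => base_jump K g hM x s b (0, 0)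
  rw [D, e, h1.fderiv]
  simp [hΔ, sub_mul, mul_sub]

theorem gam_sum (hM : 1 ≤ M) {s : Fin (k + 1) → ℝ} (hs : ∀ i, 0 < dur s i) :
    ∑ i, (if Ws M (Int.fract (-s i)) = 0 then 0 else min 1 (M * dur s i)) ≤ 2 := by
  set u : ℝ → ℝ := fun y => max 0 (min 1 ((1 - M * y) / 2)) with hu
  have hP : Prof u := by
    refine ⟨fun y hy => ?_, fun y hy => ?_⟩
    · have : 1 ≤ (1 - M * y) / 2 := by nlinarith
      simp only [hu, min_eq_left this, max_eq_right zero_le_one]
    · have : (1 - M * y) / 2 ≤ 0 := by nlinarith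
      exact max_eq_left ((min_le_right _ _).trans this)
  have hw : ∀ p : ℤ × Fin (k + 1), 0 ≤ u (p.1 + s p.2) - u (p.1 + nxt s p.2) := by
    intro p
    have h1 := hs p.2
    unfold dur at h1
    have h2 : (1 - M * (p.1 + nxt s p.2)) / 2 ≤ (1 - M * (p.1 + s p.2)) / 2 := by nlinarith
    exact sub_nonneg.2 (max_le_max le_rfl (min_le_min le_rfl h2))
  have h1 := sum_le_hasSum (univ.map ⟨fun i => (⌊-s i⌋, i), fun a b h => congrArg Prod.snd h⟩)
    (fun p _ => hw p) (hP.hasSum_one s)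
  rw [sum_map] at h1
  have h2 : ∑ i, (u ((⌊-s i⌋ : ℤ) + s i) - u ((⌊-s i⌋ : ℤ) + nxt s i)) ≤ 1 := h1
  refine (sum_le_sum (g := fun i => 2 * (u ((⌊-s i⌋ : ℤ) + s i) - u ((⌊-s i⌋ : ℤ) + nxt s i)))
    fun i _ => ?_).trans (by rw [← mul_sum]; linarith)
  split_ifs with h
  · exact mul_nonneg zero_le_two (hw (⌊-s i⌋, i))
  · have h3 : ¬(Int.fract (-s i) ≤ 0 ∨ 1 / M ≤ Int.fract (-s i)) := fun h' => h (Ws_zero hM _ h')
    rw [not_or, not_le, not_le, lt_div_iff₀' (by linarith)] at h3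
    have h4 : 0 < M * Int.fract (-s i) := mul_pos (by linarith) h3.1
    have e1 : M * ((⌊-s i⌋ : ℤ) + s i) = -(M * Int.fract (-s i)) := by rw [Int.fract]; ring
    have e2 : M * ((⌊-s i⌋ : ℤ) + nxt s i) = M * dur s i - M * Int.fract (-s i) := by
      rw [Int.fract, dur]; ring
    have h5 := h3.2
    simp only [hu, e1, e2]
    generalize M * Int.fract (-s i) = a at h4 h5 ⊢
    generalize M * dur s i = d
    simp only [max_def, min_def]
    split_ifs <;> linarith

theorem D_sq_le {G : Type*} [Group G] (K : Ker G) (l : Len G) {β : ℝ} (hβ : 0 ≤ β) (hM : 1 ≤ M)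
    (hL : ∀ x x' b, |K.F x b - K.F x' b| ≤ β * l.d x' x) (g : G) (x : Fin (k + 1) → G)
    {s : Fin (k + 1) → ℝ} (hs : ∀ i, 0 < dur s i) (v : Fin (k + 1) → ℝ) (b : G) (t : ℝ) :
    D (base K M g x) (s + t • 1) b v ^ 2 ≤
      ∑ i, 2 * β ^ 2 * (v i ^ 2 / rho l M g x s i ^ 2) * Ws M (Int.fract (-(s i + t))) ^ 2 := by
  have e : ∀ i, (s + t • (1 : Fin (k + 1) → ℝ)) i = s i + t := fun i => by simp
  have h1 := gam_sum hM (s := s + t • 1) fun i => by rw [shift_mem]; exact hs i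
  have hγ : ∀ i, 0 < min 1 (M * dur s i) := fun i => lt_min one_pos (mul_pos (by linarith) (hs i))
  rw [D_base K g hM, neg_sq]
  simp only [e, shift_mem] at h1 ⊢
  refine (sum_sq_le_sum_mul_sum_of_sq_le_mul univ
    (f := fun i => if Ws M (Int.fract (-(s i + t))) = 0 then 0 else min 1 (M * dur s i))
    (g := fun i => β ^ 2 * (v i ^ 2 / rho l M g x s i ^ 2) * Ws M (Int.fract (-(s i + t))) ^ 2)
    (fun i _ => ?_) (fun i _ => by positivity) fun i _ => ?_).trans ?_
  · split_ifs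
    · exact le_rfl
    · exact (hγ i).le
  · split_ifs with h
    · rw [h]; simp
    · have h2 := hL (g ^ ⌊-(s i + t)⌋ * x i) (g ^ ⌊-(s i + t)⌋ * rot g x i) b
      rw [d_step] at h2
      have h3 := l.nonneg (step g x i)
      have h4 : (K.F (g ^ ⌊-(s i + t)⌋ * x i) b - K.F (g ^ ⌊-(s i + t)⌋ * rot g x i) b) ^ 2 ≤
          (β * (1 + l.n (step g x i))) ^ 2 :=
        sq_le_sq' (by linarith [neg_le_of_abs_le h2]) (by linarith [le_of_abs_le h2])
      have h5 : rho l M g x s i ^ 2 = min 1 (M * dur s i) / (1 + l.n (step g x i)) ^ 2 := by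
        rw [rho, div_pow, Real.sq_sqrt (hγ i).le]
      have h6 := hγ i
      rw [h5]
      calc _ = (K.F (g ^ ⌊-(s i + t)⌋ * x i) b - K.F (g ^ ⌊-(s i + t)⌋ * rot g x i) b) ^ 2 *
            (Ws M (Int.fract (-(s i + t))) ^ 2 * v i ^ 2) := by ring
        _ ≤ (β * (1 + l.n (step g x i))) ^ 2 * (Ws M (Int.fract (-(s i + t))) ^ 2 * v i ^ 2) :=
          mul_le_mul_of_nonneg_right h4 (by positivity)
        _ = _ := by field_simp
  · refine (mul_le_mul_of_nonneg_right h1 (sum_nonneg fun i _ => by positivity)).trans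
      (le_of_eq ?_)
    rw [mul_sum]
    exact sum_congr rfl fun i _ => by ring

theorem exists_base_const (G : Type*) [Group G] : ∃ C : ℝ, 1 ≤ C ∧
    ∀ (K : Ker G) (l : Len G) (β M : ℝ), 0 ≤ β → 1 ≤ M →
      (∀ x x' b, |K.F x b - K.F x' b| ≤ β * l.d x' x) →
      ∀ (k : ℕ) (g : G) (x : Fin (k + 1) → G) (s : Fin (k + 1) → ℝ), (∀ i, 0 < dur s i) →
        (∀ v b, Win (fun t : ℝ => D (base K M g x) (s + t • 1) b v ^ 2)
          (C * β ^ 2 * M * ∑ i, v i ^ 2 / rho l M g x s i ^ 2)) ∧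
        (∀ v b (t : ℝ), D (base K M g x) (s + t • 1) b v ^ 2 ≤
          C * β ^ 2 * M ^ 2 * ∑ i, v i ^ 2 / rho l M g x s i ^ 2) ∧
        ∀ (i : Fin (k + 1)) (U : Finset G),
          Win (fun t : ℝ => ∑ b ∈ U, |D (base K M g x) (s + t • 1) b (Pi.single i 1)|) (C * K.W) := by
  obtain ⟨C, hC1, hC⟩ := exists_CU
  refine ⟨2 * C ^ 2, by nlinarith, fun K l β M hβ hM hL k g x s hs => ?_⟩
  have hM0 : 0 < M := by linarith
  have hW : ∀ y, |Ws M y| ≤ M * C := fun y => by
    rw [Ws, abs_mul, abs_of_pos hM0]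
    exact mul_le_mul_of_nonneg_left (hC _) hM0.le
  have hW2 : ∀ y, Ws M y ^ 2 ≤ (M * C) ^ 2 := fun y =>
    sq_le_sq' (neg_le_of_abs_le (hW y)) (le_of_abs_le (hW y))
  have hDc : ∀ v b, Continuous fun t : ℝ => D (base K M g x) (s + t • 1) b v := fun v b => by
    have := (base_lf K g hM x).D.cont b
    fun_prop
  refine ⟨fun v b => ?_, fun v b t => ?_, fun i U => ?_⟩
  · have hc : ∀ i, Continuous fun t => 2 * β ^ 2 * (v i ^ 2 / rho l M g x s i ^ 2) *
        Ws M (Int.fract (-(s i + t))) ^ 2 :=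
      fun i => continuous_const.mul ((cont_fract Ws_cont (Ws_zero' hM) _).pow 2)
    refine (Win.sum univ hc fun i => (win_fract (H := fun y => Ws M y ^ 2) (Ws_cont.pow 2) hM hW2
      (fun y hy => by simp [Ws_zero hM y hy]) (s i)).const_mul (by positivity)).of_le
      ((hDc v b).pow 2) (continuous_finsetSum _ fun i _ => hc i)
      (D_sq_le K l hβ hM hL g x hs v b) (le_of_eq ?_)
    rw [mul_sum]
    refine sum_congr rfl fun i _ => ?_
    generalize v i ^ 2 / rho l M g x s i ^ 2 = z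
    field_simp
  · refine (D_sq_le K l hβ hM hL g x hs v b t).trans ?_
    rw [mul_sum]
    refine sum_le_sum fun i _ => ?_
    refine (mul_le_mul_of_nonneg_left (hW2 _) (by positivity)).trans (le_of_eq ?_)
    ring
  · have hK := K.W_nonneg
    refine ((win_fract (H := fun y => |Ws M y|) Ws_cont.abs hM hW
      (fun y hy => by simp [Ws_zero hM y hy]) (s i)).const_mul
        (mul_nonneg zero_le_two hK)).of_le (continuous_finsetSum _ fun b _ => (hDc _ b).abs)
      (continuous_const.mul (cont_fract Ws_cont (Ws_zero' hM) _).abs) (fun t => ?_) ?_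
    · have e : ∀ b, |D (base K M g x) (s + t • 1) b (Pi.single i 1)| ≤
          |Ws M (Int.fract (-(s i + t)))| * (K.F (g ^ ⌊-(s i + t)⌋ * x i) b +
            K.F (g ^ ⌊-(s i + t)⌋ * rot g x i) b) := by
        intro b
        have e0 : (s + t • (1 : Fin (k + 1) → ℝ)) i = s i + t := by simp
        rw [D_base K g hM, abs_neg, sum_eq_single i (fun j _ hj => by simp [hj]) (by simp), e0,
          Pi.single_eq_same, mul_one, abs_mul]
        refine mul_le_mul_of_nonneg_left ?_ (abs_nonneg _)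
        have h1 := K.nonneg (g ^ ⌊-(s i + t)⌋ * x i) b
        have h2 := K.nonneg (g ^ ⌊-(s i + t)⌋ * rot g x i) b
        rw [abs_le]
        constructor <;> linarith
      refine (sum_le_sum fun b _ => e b).trans ?_
      rw [← mul_sum, sum_add_distrib, mul_comm]
      refine mul_le_mul_of_nonneg_right ?_ (abs_nonneg _)
      linarith [K.sum_le (g ^ ⌊-(s i + t)⌋ * x i) U, K.sum_le (g ^ ⌊-(s i + t)⌋ * rot g x i) U]
    · rw [mul_div_cancel_left₀ _ hM0.ne']
      nlinarith [mul_nonneg hK (mul_nonneg (sub_nonneg.2 hC1) (zero_le_one.trans hC1))]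

end Vale.Agent.P184.An
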