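import Vale.Agent.P184.An.Up

/-! The positive forms added to the diagonal form, and their traces. -/

namespace Vale.Agent.P184.An

open Finset intervalIntegral
open scoped ContDiff

variable {G : Type*} [Group G] {n : ℕ} {K : Ker G} {g : G} {s : Vn n} {a q : Vn n → G → ℝ} {w : ℝ}
  {N : Vn n → ℝ}

/-- weighted sum of squares of derivatives, integrated over one period -/
noncomputable def QF (q a : Vn n → G → ℝ) : Vn n → Vn n →L[ℝ] Vn n →L[ℝ] ℝ :=
  lint 1 (fun _ => 1) 1 fun s => ∑' b, (q s b • D a s b).smulRight (D a s b)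

section
omit [Group G]

theorem LF.qf (ha : LF a) (hq : ∀ b, ContDiff ℝ ∞ fun s => q s b) :
    LF fun s b => (q s b • An.D a s b).smulRight (An.D a s b) :=
  ha.D.of_zero (fun b => ((hq b).smul (ha.D.1 b)).smulRight (ha.D.1 b)) fun s b h => by
    ext v v'; simp [h]

theorem LF.qv (ha : LF a) (hq : ∀ b, ContDiff ℝ ∞ fun s => q s b) (v v' : Vn n) :
    LF fun s b => q s b * (An.D a s b v * An.D a s b v') :=
  ha.D.of_zero (fun b => (hq b).mul (((ha.D.1 b).clm_apply contDiff_const).mul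
    ((ha.D.1 b).clm_apply contDiff_const))) fun s b h => by simp [h]

theorem LF.cq (ha : LF a) (hq : ∀ b, ContDiff ℝ ∞ fun s => q s b) (s v v' : Vn n) :
    Continuous fun t : ℝ =>
      ∑' b, q (s + t • 1) b * (An.D a (s + t • 1) b v * An.D a (s + t • 1) b v') :=
  (ha.qv hq v v').contDiff_tsum.continuous.comp (f := fun t : ℝ => s + t • 1) (by fun_prop)

theorem LF.QF_apply (ha : LF a) (hq : ∀ b, ContDiff ℝ ∞ fun s => q s b) (s v v' : Vn n) :
    QF q a s v v' = ∫ t in (0 : ℝ)..1,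
      ∑' b, q (s + t • 1) b * (An.D a (s + t • 1) b v * An.D a (s + t • 1) b v') := by
  have hc : Continuous fun t : ℝ => ∑' b, (q (s + t • 1) b • An.D a (s + t • 1) b).smulRight
      (An.D a (s + t • 1) b) :=
    (ha.qf hq).contDiff_tsum.continuous.comp (f := fun t : ℝ => s + t • 1) (by fun_prop)
  rw [QF, An.lint]
  simp only [one_smul]
  rw [ContinuousLinearMap.intervalIntegral_apply (hc.intervalIntegrable _ _),
    ContinuousLinearMap.intervalIntegral_apply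
      ((hc.clm_apply continuous_const).intervalIntegrable _ _)]
  refine integral_congr fun t _ => ?_
  obtain ⟨U, hU, -⟩ := ha.D.near (s + t • 1)
  rw [tsum_eq_sum (s := U) fun b hb => by ext v v'; simp [hU b hb],
    tsum_eq_sum (s := U) fun b hb => by simp [hU b hb]]
  simp [_root_.sum_apply, mul_assoc]

theorem LF.QF_symm (ha : LF a) (hq : ∀ b, ContDiff ℝ ∞ fun s => q s b) (s v v' : Vn n) :
    QF q a s v v' = QF q a s v' v := by
  simp only [ha.QF_apply hq, mul_comm (An.D a _ _ v)]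

theorem LF.QF_nonneg (ha : LF a) (hq : ∀ b, ContDiff ℝ ∞ fun s => q s b)
    (h0 : ∀ (t : ℝ) b, 0 ≤ q (s + t • 1) b) (v : Vn n) : 0 ≤ QF q a s v v := by
  rw [ha.QF_apply hq]
  exact integral_nonneg zero_le_one fun t _ => tsum_nonneg fun b =>
    mul_nonneg (h0 t b) (mul_self_nonneg _)

end

theorem Good.win_QF (H : Good K g s a) (hq : ∀ b, ContDiff ℝ ∞ fun s => q s b) (hp : Per g q)
    (v : Vn n) : Win (fun t : ℝ => ∑' b, q (s + t • 1) b *
      (An.D a (s + t • 1) b v * An.D a (s + t • 1) b v)) (QF q a s v v) := by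
  refine Win.of_periodic (periodic_line
    (f := fun s => ∑' b, q s b * (An.D a s b v * An.D a s b v)) (fun y => ?_) s)
    (H.lf.QF_apply hq s v v).ge
  rw [← (Equiv.mulLeft g⁻¹).tsum_eq
    fun b => q (y + 1) b * (An.D a (y + 1) b v * An.D a (y + 1) b v)]
  refine tsum_congr fun b => ?_
  rw [hp.2 y b, Rel.D H.per H.lf y b v]
  rfl

theorem Good.W2_rcn (H : Good K g s a) {ρ : ℝ}
    (h : ∀ v, QF (fun s => K.gn (a s)) a s v v ≤ ρ * N v ^ 2) :
    W2 N (An.rcn K a) s (4 * K.c ^ 2 * ρ) := fun v b => by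
  have hW := (H.win_QF (H.lf.gn K).1 ⟨rfl, Rel.gn K H.per⟩ v).const_mul
    (show 0 ≤ 4 * K.c ^ 2 by positivity)
  refine hW.of_le (((H.lf.rcn K).cD s b v).fun_pow 2) ((H.lf.cq (H.lf.gn K).1 s v v).const_mul _)
    (fun t => ?_) (by rw [mul_assoc _ ρ]; exact mul_le_mul_of_nonneg_left (h v) (by positivity))
  rw [H.lf.D_rcn]
  simpa only [sq (D a _ _ v)] using (H.adm t).dm_sq (fun x => D a (s + t • 1) x v) b

theorem Good.W2_self (H : Good K g s a) {ρ : ℝ}
    (h : ∀ v, QF (fun _ _ => 1) a s v v ≤ ρ * N v ^ 2) : W2 N a s ρ := fun v b => by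
  have hq : ∀ b : G, ContDiff ℝ ∞ fun s : Vn n => (fun _ _ => (1 : ℝ)) s b := fun _ => contDiff_const
  refine (H.win_QF hq ⟨rfl, fun _ _ => rfl⟩ v).of_le ((H.lf.cD s b v).fun_pow 2)
    (H.lf.cq hq s v v) (fun t => ?_) (h v)
  simpa only [one_mul, sq] using ((H.lf.qv hq v v).summable (s + t • 1)).le_tsum b
    fun b _ => mul_nonneg zero_le_one (mul_self_nonneg _)

theorem dual_le {x : Vn n →L[ℝ] ℝ} {ρ : Vn n} (hρ : ∀ i, 0 < ρ i) {A : ℝ} (hA : 0 ≤ A)
    (h : ∀ v, x v ^ 2 ≤ A * ∑ i, v i ^ 2 / ρ i ^ 2) :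
    ∑ i, ρ i ^ 2 * (x (Pi.single i 1) * x (Pi.single i 1)) ≤ A := by
  set T := ∑ i, ρ i ^ 2 * (x (Pi.single i 1) * x (Pi.single i 1)) with hT
  have hT0 : 0 ≤ T := sum_nonneg fun i _ => mul_nonneg (sq_nonneg _) (mul_self_nonneg _)
  have h1 := h fun i => ρ i ^ 2 * x (Pi.single i 1)
  have h2 : x (fun i => ρ i ^ 2 * x (Pi.single i 1)) = T := by
    rw [pi_eq_sum_univ' (fun i => ρ i ^ 2 * x (Pi.single i 1)), map_sum]
    exact sum_congr rfl fun i _ => by rw [map_smul, smul_eq_mul, mul_assoc]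
  have h3 : ∑ i, (ρ i ^ 2 * x (Pi.single i 1)) ^ 2 / ρ i ^ 2 = T :=
    sum_congr rfl fun i _ => by have := hρ i; field_simp
  rw [h2, h3] at h1
  by_contra hc
  nlinarith [not_le.1 hc]

theorem Good.trace_gn (H : Good K g s a) {ρ : Vn n} (hρ : ∀ i, 0 < ρ i) {A : ℝ} (hA : 0 ≤ A)
    (h : ∀ v b (t : ℝ), D a (s + t • 1) b v ^ 2 ≤ A * ∑ i, v i ^ 2 / ρ i ^ 2) :
    ∑ i, ρ i ^ 2 * QF (fun s => K.gn (a s)) a s (Pi.single i 1) (Pi.single i 1) ≤ A := by
  simp only [H.lf.QF_apply (H.lf.gn K).1, ← integral_const_mul]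
  rw [← integral_finsetSum fun i _ =>
    ((H.lf.cq (H.lf.gn K).1 s _ _).const_mul _).intervalIntegrable _ _]
  refine (le_abs_self _).trans (abs_int_le fun t => ?_)
  have e : ∀ v : Vn n, ∑' b, K.gn (a (s + t • 1)) b * (D a (s + t • 1) b v * D a (s + t • 1) b v) =
      ∑ b ∈ (H.adm t).fin.toFinset, K.gn (a (s + t • 1)) b *
        (D a (s + t • 1) b v * D a (s + t • 1) b v) := fun v => tsum_eq_sum fun b hb => by
    have : a (s + t • 1) b = 0 := by simpa using hb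
    simp [Ker.gn, this]
  simp only [e, mul_sum]
  rw [sum_comm]
  simp only [mul_left_comm (ρ _ ^ 2) (K.gn _ _), ← mul_sum]
  refine (H.adm t).abs_sum_le (H.adm t).gn_nonneg (fun _ => le_rfl) (fun b => ?_) _
  rw [abs_of_nonneg (sum_nonneg fun i _ => mul_nonneg (sq_nonneg _) (mul_self_nonneg _))]
  exact dual_le hρ hA fun v => h v b t

omit [Group G] in
theorem W1.trace {ρ : ℝ} {v : Vn n} (H : W1 a s v ρ) (ha : LF a) (hw : 0 < w) :
    QF (fun _ _ => 1) (An.avg w a) s v v ≤ w⁻¹ * (w + 1) * ρ ^ 2 := by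
  have hq : ∀ b : G, ContDiff ℝ ∞ fun s : Vn n => (fun _ _ => (1 : ℝ)) s b := fun _ => contDiff_const
  have hρ : 0 ≤ ρ := by simpa using (H ∅).zero_one
  obtain ⟨U, hU⟩ := (ha.avg w).D.line s 1 1
  obtain ⟨h1, h2⟩ := H.avg ha hw
  have hB : 0 ≤ w⁻¹ * (w + 1) * ρ := by positivity
  rw [(ha.avg w).QF_apply hq, sq, ← mul_assoc]
  refine le_trans (integral_mono_on zero_le_one (((ha.avg w).cq hq s v v).intervalIntegrable _ _)
    ((((ha.avg w).cA s v U).const_mul _).intervalIntegrable _ _) fun t ht => ?_)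
    ((h1 U).const_mul hB).zero_one
  rw [tsum_eq_sum (s := U) fun b hb => by
    simp [hU t (abs_le.2 ⟨by linarith [ht.1], ht.2⟩) b hb], mul_sum]
  refine sum_le_sum fun b hb => ?_
  rw [one_mul, ← abs_mul_abs_self]
  exact mul_le_mul_of_nonneg_right ((single_le_sum (f := fun b => |D (An.avg w a) (s + t • 1) b v|)
    (fun _ _ => abs_nonneg _) hb).trans (h2 U t)) (abs_nonneg _)

end Vale.Agent.P184.An
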