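import Vale.Agent.P184.An.Par
import Vale.Agent.P184.An.Pot

/-! The levels: definitions, smoothness, naturality. -/

namespace Vale.Agent.P184.An

open Finset
open scoped ContDiff

variable {G : Type*} [Group G] {n n' : ℕ}

abbrev Vn (n : ℕ) := Fin n → ℝ

/-- average over a window -/
noncomputable def avg (w : ℝ) (a : Vn n → G → ℝ) : Vn n → G → ℝ :=
  fun s b => lint 1 (fun _ => w⁻¹) w (fun s => a s b) s

/-- primitive of `a - avg w a` along the diagonal -/
noncomputable def prm (w : ℝ) (a : Vn n → G → ℝ) : Vn n → G → ℝ :=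
  fun s b => lint 1 (fun τ => τ / w - 1) w (fun s => a s b) s

noncomputable def om (K : Ker G) (w : ℝ) (a : Vn n → G → ℝ) (s : Vn n) : Vn n →L[ℝ] ℝ :=
  ∑' b, K.gm (a s) b • D (prm w a) s b

/-- the one-form of one level -/
noncomputable def Lam1 (K : Ker G) (w : ℝ) (a : Vn n → G → ℝ) : Vn n → Vn n →L[ℝ] ℝ :=
  lint 1 (fun _ => 1) 1 (om K w a)

noncomputable def rcn (K : Ker G) (a : Vn n → G → ℝ) : Vn n → G → ℝ := fun s => K.rc (a s)

noncomputable def seq (w : ℕ → ℝ) (a : Vn n → G → ℝ) : ℕ → Vn n → G → ℝ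
  | 0 => a
  | j + 1 => avg (w j) (seq w a j)

noncomputable def LamS (K : Ker G) (w : ℕ → ℝ) (a : Vn n → G → ℝ) (J : ℕ) (s : Vn n) :
    Vn n →L[ℝ] ℝ := ∑ j ∈ range J, Lam1 K (w j) (seq w a j) s

theorem ph_contDiff : ContDiff ℝ ∞ ph := by unfold ph; fun_prop
theorem ph1_contDiff : ContDiff ℝ ∞ ph1 := by unfold ph1; fun_prop
theorem ph2_contDiff : ContDiff ℝ ∞ ph2 := by unfold ph2; fun_prop

theorem hasDerivAt_ph (x : ℝ) : HasDerivAt ph (ph1 x) x := by
  have := ((Real.hasDerivAt_cosh x).sub_const 1).sub ((hasDerivAt_pow 2 x).div_const 2)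
  refine this.congr_deriv ?_
  simp [ph1]

theorem hasDerivAt_ph1 (x : ℝ) : HasDerivAt ph1 (ph2 x) x :=
  (Real.hasDerivAt_sinh x).sub (hasDerivAt_id x)

namespace LF

variable {a : Vn n → G → ℝ} (K : Ker G)

omit [Group G] in
theorem avg (ha : LF a) (w : ℝ) : LF (avg w a) := ha.lint 1 continuous_const w

omit [Group G] in
theorem prm (ha : LF a) (w : ℝ) : LF (prm w a) := ha.lint 1 (by fun_prop) w

omit [Group G] in
theorem seq (ha : LF a) (w : ℕ → ℝ) : ∀ j, LF (seq w a j)
  | 0 => ha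
  | j + 1 => (ha.seq w j).avg _

omit [Group G] in
theorem ph (ha : LF a) : LF fun s b => ph (a s b) :=
  ha.of_zero (fun b => ph_contDiff.comp (ha.1 b)) fun s b h => by simp [h]

theorem S (ha : LF a) : ContDiff ℝ ∞ fun s => K.S (a s) := contDiff_const.add ha.ph.contDiff_tsum

theorem logS (ha : LF a) : Continuous fun s => Real.log (K.S (a s)) :=
  (ha.S K).continuous.log fun s => (K.S_pos _).ne'

theorem gm (ha : LF a) : LF fun s => K.gm (a s) :=
  ha.of_zero (fun b => (ph1_contDiff.comp (ha.1 b)).div (ha.S K) fun s => (K.S_pos _).ne')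
    fun s b h => by simp [Ker.gm, h]

theorem gn (ha : LF a) : LF fun s => K.gn (a s) :=
  ha.of_zero (fun b => (ph2_contDiff.comp (ha.1 b)).div (ha.S K) fun s => (K.S_pos _).ne')
    fun s b h => by simp [Ker.gn, h]

theorem gmF (ha : LF a) (b : G) : LF fun s x => K.gm (a s) x * K.F x b :=
  (ha.gm K).of_zero (fun x => ((ha.gm K).1 x).mul contDiff_const) fun s x h => by simp [h]

theorem rcn (ha : LF a) : LF (rcn K a) := by
  classical
  refine ⟨fun b => (ha.gmF K b).contDiff_tsum, fun R => ?_⟩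
  obtain ⟨U, hU⟩ := (ha.gm K).2 R
  refine ⟨U.biUnion fun x => (K.fin x).toFinset, fun s hs b hb => ?_⟩
  refine (tsum_congr fun x => ?_).trans tsum_zero
  by_cases hx : x ∈ U
  · have : K.F x b = 0 := by_contra fun h => hb (mem_biUnion.2 ⟨x, hx, by simpa using h⟩)
    simp [this]
  · simp [hU s hs x hx]

theorem omf (ha : LF a) (w : ℝ) : LF fun s b => K.gm (a s) b • An.D (An.prm w a) s b :=
  (ha.gm K).of_zero (fun b => ((ha.gm K).1 b).smul ((ha.prm w).D.1 b)) fun s x h => by simp [h]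

theorem om (ha : LF a) (w : ℝ) : ContDiff ℝ ∞ (om K w a) := (ha.omf K w).contDiff_tsum

theorem Lam1 (ha : LF a) (w : ℝ) : ContDiff ℝ ∞ (Lam1 K w a) :=
  contDiff_lint 1 continuous_const 1 (ha.om K w)

theorem LamS (ha : LF a) (w : ℕ → ℝ) (J : ℕ) : ContDiff ℝ ∞ (LamS K w a J) :=
  ContDiff.sum fun j _ => (ha.seq w j).Lam1 K _

theorem tsum_apply {E : Type} [NormedAddCommGroup E] [NormedSpace ℝ E] {ι : Type*}
    {A : Vn n → ι → Vn n' →L[ℝ] E} (hA : LF A) (s : Vn n) (v : Vn n') :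
    (∑' b, A s b) v = ∑' b, A s b v :=
  (ContinuousLinearMap.apply ℝ E v).map_tsum (hA.summable s)

theorem D_gm (ha : LF a) (s : Vn n) (b : G) :
    An.D (fun s => K.gm (a s)) s b =
      K.gn (a s) b • An.D a s b - K.gm (a s) b • ∑' x, K.gm (a s) x • An.D a s x := by
  have hS := K.S_pos (a s)
  have h1 : HasFDerivAt (fun s => K.S (a s)) (∑' x, ph1 (a s x) • An.D a s x) s := by
    have := (ha.ph.hasFDerivAt_tsum s).const_add K.V1
    refine this.congr_fderiv (tsum_congr fun x => ?_)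
    exact ((hasDerivAt_ph _).comp_hasFDerivAt s (ha.diff x s)).fderiv
  have h2 := (hasDerivAt_ph1 _).comp_hasFDerivAt s (ha.diff b s)
  have h3 := (hasDerivAt_inv hS.ne').comp_hasFDerivAt s h1
  have h4 : HasFDerivAt (fun s => K.gm (a s) b) _ s := (h2.mul h3).congr_of_eventuallyEq
    (Filter.Eventually.of_forall fun y => div_eq_mul_inv _ _)
  have h5 : ∑' x, K.gm (a s) x • An.D a s x = (K.S (a s))⁻¹ • ∑' x, ph1 (a s x) • An.D a s x := by
    rw [← tsum_const_smul'']
    exact tsum_congr fun x => by rw [smul_smul, Ker.gm, div_eq_inv_mul]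
  rw [An.D, h4.fderiv, h5]
  ext v
  simp [Ker.gm, Ker.gn]
  field_simp
  ring

theorem gmD (ha : LF a) : LF fun s b => K.gm (a s) b • An.D a s b :=
  (ha.gm K).of_zero (fun b => ((ha.gm K).1 b).smul (ha.D.1 b)) fun s x h => by simp [h]

theorem D_gm_apply (ha : LF a) (s : Vn n) (b : G) (v : Vn n) :
    An.D (fun s => K.gm (a s)) s b v = K.dm (a s) (fun x => An.D a s x v) b := by
  rw [ha.D_gm, Ker.dm]
  simp [(ha.gmD K).tsum_apply]

theorem D_rcn (ha : LF a) (s : Vn n) (b : G) (v : Vn n) :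
    An.D (An.rcn K a) s b v = ∑' x, K.dm (a s) (fun x => An.D a s x v) x * K.F x b := by
  have h := ((ha.gmF K b).hasFDerivAt_tsum s).fderiv
  change fderiv ℝ (fun s => ∑' x, K.gm (a s) x * K.F x b) s v = _
  rw [h, (ha.gmF K b).D.tsum_apply]
  refine tsum_congr fun x => ?_
  rw [← ha.D_gm_apply, An.D, (((ha.gm K).diff x s).mul_const (K.F x b)).fderiv]
  simp [mul_comm]

end LF

/-- two families correspond under an affine map and a translation -/
def Rel (L : Vn n →L[ℝ] Vn n') (c : Vn n') (h : G) (a : Vn n → G → ℝ) (a' : Vn n' → G → ℝ) : Prop :=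
  L 1 = 1 ∧ ∀ s b, a s b = a' (L s + c) (h * b)

namespace Rel

variable {L : Vn n →L[ℝ] Vn n'} {c : Vn n'} {h : G} {a : Vn n → G → ℝ} {a' : Vn n' → G → ℝ}
  (K : Ker G)

theorem shift (H : Rel L c h a a') (s : Vn n) (τ : ℝ) : L (s + τ • 1) + c = L s + c + τ • 1 := by
  rw [map_add, map_smul, H.1, add_right_comm]

theorem lint (H : Rel L c h a a') (k : ℝ → ℝ) (w : ℝ) :
    Rel L c h (fun s b => lint 1 k w (fun s => a s b) s)
      (fun s b => lint 1 k w (fun s => a' s b) s) :=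
  ⟨H.1, fun s b => by simp only [An.lint, H.2, H.shift]⟩

theorem seq (H : Rel L c h a a') (w : ℕ → ℝ) : ∀ j, Rel L c h (seq w a j) (seq w a' j)
  | 0 => H
  | j + 1 => (H.seq w j).lint _ _

theorem S (H : Rel L c h a a') (s : Vn n) : K.S (a s) = K.S (a' (L s + c)) := by
  unfold Ker.S
  rw [← (Equiv.mulLeft h).tsum_eq fun b => ph (a' (L s + c) b)]
  simp only [H.2, Equiv.coe_mulLeft]

theorem gm (H : Rel L c h a a') (s : Vn n) (b : G) :
    K.gm (a s) b = K.gm (a' (L s + c)) (h * b) := by rw [Ker.gm, Ker.gm, H.S, H.2]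

theorem gn (H : Rel L c h a a') (s : Vn n) (b : G) :
    K.gn (a s) b = K.gn (a' (L s + c)) (h * b) := by rw [Ker.gn, Ker.gn, H.S, H.2]

theorem rcn (H : Rel L c h a a') : Rel L c h (rcn K a) (rcn K a') := ⟨H.1, fun s b => by
  unfold An.rcn Ker.rc
  rw [← (Equiv.mulLeft h).tsum_eq fun x => K.gm (a' (L s + c)) x * K.F x (h * b)]
  simp only [H.gm, Equiv.coe_mulLeft, K.inv]⟩

theorem D (H : Rel L c h a a') (ha : LF a') (s : Vn n) (b : G) (v : Vn n) :
    D a s b v = D a' (L s + c) (h * b) (L v) := by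
  have h1 := (ha.diff (h * b) (L s + c)).comp s (L.hasFDerivAt.add_const c)
  have h2 : (fun s => a s b) = (fun s => a' s (h * b)) ∘ fun s => L s + c := funext fun s => H.2 s b
  rw [An.D, h2, h1.fderiv]; rfl

theorem om (H : Rel L c h a a') (ha : LF a) (ha' : LF a') (w : ℝ) (s v : Vn n) :
    om K w a s v = om K w a' (L s + c) (L v) := by
  unfold An.om
  rw [(ha.omf K w).tsum_apply, (ha'.omf K w).tsum_apply, ← (Equiv.mulLeft h).tsum_eq
    fun b => (K.gm (a' (L s + c)) b • An.D (prm w a') (L s + c) b) (L v)]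
  refine tsum_congr fun b => ?_
  have := (H.lint (fun τ => τ / w - 1) w).D (ha'.prm w) s b v
  simp only [smul_apply, H.gm, Equiv.coe_mulLeft]
  exact congrArg _ this

end Rel

theorem Lam1_apply (K : Ker G) {a : Vn n → G → ℝ} (ha : LF a) (w : ℝ) (s v : Vn n) :
    Lam1 K w a s v = ∫ t in (0 : ℝ)..1, om K w a (s + t • 1) v := by
  have := (ha.om K w).continuous
  rw [Lam1, lint, ContinuousLinearMap.intervalIntegral_apply
    (Continuous.intervalIntegrable (by fun_prop) _ _)]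
  simp

theorem Rel.LamS {L : Vn n →L[ℝ] Vn n'} {c : Vn n'} {h : G} {a : Vn n → G → ℝ}
    {a' : Vn n' → G → ℝ} (K : Ker G) (H : Rel L c h a a') (ha : LF a) (ha' : LF a') (w : ℕ → ℝ)
    (J : ℕ) (s v : Vn n) : LamS K w a J s v = LamS K w a' J (L s + c) (L v) := by
  simp only [An.LamS, _root_.sum_apply]
  refine sum_congr rfl fun j _ => ?_
  rw [Lam1_apply K (ha.seq w j), Lam1_apply K (ha'.seq w j)]
  simp only [(H.seq w j).om K (ha.seq w j) (ha'.seq w j), H.shift]

/-- twisted periodicity -/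
def Per (g : G) (a : Vn n → G → ℝ) : Prop := Rel (ContinuousLinearMap.id ℝ _) 1 g⁻¹ a a

theorem periodic_line {E : Type*} {f : Vn n → E} (hf : ∀ s, f s = f (s + 1)) (s : Vn n) :
    Function.Periodic (fun t : ℝ => f (s + t • 1)) 1 := fun t => by
  simp only
  rw [hf (s + t • 1), add_smul, one_smul, add_assoc]

theorem Per.LamS_shift {g : G} {a : Vn n → G → ℝ} (K : Ker G) (H : Per g a) (ha : LF a) (w : ℕ → ℝ)
    (J : ℕ) (s : Vn n) (c : ℝ) : LamS K w a J (s + c • 1) = LamS K w a J s := by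
  ext1 v
  simp only [An.LamS, _root_.sum_apply]
  refine sum_congr rfl fun j _ => ?_
  rw [Lam1_apply K (ha.seq w j), Lam1_apply K (ha.seq w j)]
  have hp := periodic_line (f := fun s => om K (w j) (seq w a j) s v)
    (fun s => (Rel.seq H w j).om K (ha.seq w j) (ha.seq w j) _ s v) s
  have h2 := hp.intervalIntegral_add_eq c 0
  rw [zero_add] at h2
  rw [← h2]
  simp only [add_assoc, ← add_smul]
  rw [intervalIntegral.integral_comp_add_left (fun t => om K (w j) (seq w a j) (s + t • 1) v) c]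
  simp

end Vale.Agent.P184.An
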