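import Vale.Agent.P184.An.Lev
import Vale.Agent.P184.An.Win

/-! Lower bounds for the value of the one-forms on the diagonal direction. -/

namespace Vale.Agent.P184.An

open Finset intervalIntegral

variable {G : Type*} [Group G] {n : ℕ} {K : Ker G} {g : G} {s : Vn n} {a : Vn n → G → ℝ} {w : ℝ}

theorem av_le {f : ℝ → ℝ} {B : ℝ} (hw : 0 < w) (hf : Continuous f) (h : ∀ τ, f τ ≤ B) :
    ∫ τ in (0 : ℝ)..w, w⁻¹ * f τ ≤ B := by
  have := integral_mono_on (μ := MeasureTheory.volume) hw.le (hf.intervalIntegrable 0 w)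
    (g := fun _ => B) (by simp) fun τ _ => h τ
  rw [integral_const_mul, inv_mul_le_iff₀ hw]
  simpa using this

theorem continuous_av {h : ℝ → ℝ} (hc : Continuous h) (w : ℝ) :
    Continuous fun t => ∫ τ in (0 : ℝ)..w, w⁻¹ * h (t + τ) :=
  continuous_parametric_intervalIntegral_of_continuous' (by unfold Function.uncurry; fun_prop) _ _

omit [Group G] in
theorem avg_line (t : ℝ) (b : G) :
    avg w a (s + t • 1) b = ∫ τ in (0 : ℝ)..w, w⁻¹ * a (s + (t + τ) • 1) b := by
  simp only [avg, lint, smul_eq_mul, add_smul, add_assoc]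

omit [Group G] in
theorem LF.cline (ha : LF a) (s : Vn n) (t : ℝ) (b : G) :
    Continuous fun τ : ℝ => a (s + (t + τ) • 1) b := by
  have := ha.cont b
  fun_prop

/-- smooth, twisted periodic and admissible along the line through `s` -/
structure Good (K : Ker G) (g : G) (s : Vn n) (a : Vn n → G → ℝ) : Prop where
  lf : LF a
  per : Per g a
  adm : ∀ t : ℝ, K.Adm (a (s + t • 1))

/-- mean free energy -/
noncomputable def Y (K : Ker G) (a : Vn n → G → ℝ) (s : Vn n) : ℝ :=
  ∫ t in (0 : ℝ)..1, Real.log (K.S (a (s + t • 1)))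

theorem LF.clog (ha : LF a) (K : Ker G) (s : Vn n) :
    Continuous fun t : ℝ => Real.log (K.S (a (s + t • 1))) := (ha.logS K).comp (by fun_prop)

omit [Group G] in
theorem LF.D_prm_one (ha : LF a) (hw : 0 < w) (s : Vn n) (b : G) :
    An.D (An.prm w a) s b 1 = a s b - An.avg w a s b := by
  have hc := ha.D.cont b
  have hc' := ha.cont b
  have h1 : ∀ τ : ℝ, HasDerivAt (fun τ : ℝ => a (s + τ • 1) b) (An.D a (s + τ • 1) b 1) τ := by
    intro τ
    have h : HasDerivAt (fun τ : ℝ => s + τ • (1 : Vn n)) 1 τ := by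
      simpa using ((hasDerivAt_id τ).smul_const (1 : Vn n)).const_add s
    exact (ha.diff b _).comp_hasDerivAt τ h
  have h2 : ∀ τ : ℝ, HasDerivAt (fun τ : ℝ => τ / w - 1) w⁻¹ τ := fun τ => by
    simpa using ((hasDerivAt_id τ).div_const w).sub_const 1
  unfold An.prm
  rw [ha.D_lint 1 (by fun_prop)]
  simp only [smul_eq_mul]
  rw [integral_mul_deriv_eq_deriv_mul (fun τ _ => h2 τ) (fun τ _ => h1 τ) (by simp)
    (Continuous.intervalIntegrable (by fun_prop) _ _)]
  simp [An.avg, An.lint, hw.ne']

namespace Good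

theorem avg (H : Good K g s a) (hw : 0 < w) : Good K g s (avg w a) := by
  refine ⟨H.lf.avg w, Rel.lint H.per _ _, fun t => ⟨(H.lf.avg w).finite _, fun b => ?_,
    fun u u' => ?_, fun U => ?_⟩⟩
  · rw [avg_line]
    exact integral_nonneg hw.le fun τ _ => mul_nonneg (by positivity) ((H.adm _).nonneg b)
  · have h1 := H.lf.cline s t u
    have h2 := H.lf.cline s t u'
    rw [avg_line, avg_line, ← integral_add ((h1.const_mul _).intervalIntegrable _ _)
      ((h2.const_mul _).intervalIntegrable _ _)]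
    simp only [← mul_add]
    exact av_le hw (h1.fun_add h2) fun τ => (H.adm _).tri u u'
  · simp only [avg_line]
    rw [← integral_finsetSum fun b _ => ((H.lf.cline s t b).const_mul _).intervalIntegrable _ _]
    simp only [← mul_sum]
    exact av_le hw (continuous_finsetSum _ fun b _ => H.lf.cline s t b) fun τ => (H.adm _).sum_le U

theorem seq (H : Good K g s a) {w : ℕ → ℝ} (hw : ∀ j, 0 < w j) : ∀ j, Good K g s (seq w a j)
  | 0 => H
  | j + 1 => (H.seq hw j).avg (hw j)

theorem rcn (H : Good K g s a) : Good K g s (rcn K a) :=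
  ⟨H.lf.rcn K, Rel.rcn K H.per, fun t => (H.adm t).rc⟩

theorem Y_avg_le (H : Good K g s a) (hw : 0 < w) : Y K (An.avg w a) s ≤ Y K a s := by
  have hc := H.lf.clog K s
  have hW : Win (fun t : ℝ => Real.log (K.S (a (s + t • 1)))) (Y K a s) :=
    Win.of_periodic (periodic_line (f := fun s => Real.log (K.S (a s)))
      (fun s => by rw [Rel.S K H.per s]; rfl) s) le_rfl
  refine ((hW.avg hc hw).of_le ((H.lf.avg w).clog K s)
    (continuous_av hc w) (fun t => ?_) le_rfl).zero_one
  have hA := (H.avg hw).adm t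
  set A := An.avg w a (s + t • 1) with hAd
  have hU : ∀ (a' : G → ℝ), ∀ b ∉ hA.fin.toFinset, K.gm A b * (a' b - A b) = 0 := fun a' b hb => by
    have : A b = 0 := by simpa using hb
    simp [Ker.gm, this]
  have h1 : ∀ τ, ∑ b ∈ hA.fin.toFinset, K.gm A b * a (s + (t + τ) • 1) b
      - Real.log (K.S (a (s + (t + τ) • 1))) ≤
      ∑ b ∈ hA.fin.toFinset, K.gm A b * A b - Real.log (K.S A) := fun τ => by
    have := hA.tangent (H.adm (t + τ)).fin
    rw [tsum_eq_sum (hU _)] at this
    simp only [mul_sub, sum_sub_distrib] at this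
    linarith
  have h3 : Continuous fun τ : ℝ => ∑ b ∈ hA.fin.toFinset, K.gm A b * a (s + (t + τ) • 1) b :=
    continuous_finsetSum _ fun b _ => (H.lf.cline s t b).const_mul _
  have h4 : Continuous fun τ : ℝ => Real.log (K.S (a (s + (t + τ) • 1))) :=
    hc.comp (continuous_const_add t)
  have h2 := av_le hw (h3.fun_sub h4) h1
  simp only [mul_sub] at h2
  rw [integral_sub ((h3.const_mul _).intervalIntegrable _ _)
    ((h4.const_mul _).intervalIntegrable _ _)] at h2
  have h5 : ∫ τ in (0 : ℝ)..w, w⁻¹ * ∑ b ∈ hA.fin.toFinset, K.gm A b * a (s + (t + τ) • 1) b =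
      ∑ b ∈ hA.fin.toFinset, K.gm A b * A b := by
    simp only [mul_sum]
    rw [integral_finsetSum fun b _ =>
      (((H.lf.cline s t b).const_mul _).const_mul _).intervalIntegrable _ _]
    refine sum_congr rfl fun b _ => ?_
    conv_rhs => rw [hAd, avg_line, ← hAd, ← integral_const_mul]
    simp only [mul_left_comm]
  linarith

theorem Lam1_ge (H : Good K g s a) (hw : 0 < w) :
    Y K a s - Y K (An.avg w a) s ≤ Lam1 K w a s 1 := by
  have hc := (H.lf.om K w).continuous
  rw [Lam1_apply K H.lf, Y, Y, ← integral_sub ((H.lf.clog K s).intervalIntegrable _ _)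
    (((H.lf.avg w).clog K s).intervalIntegrable _ _)]
  refine integral_mono_on zero_le_one (((H.lf.clog K s).sub
    ((H.lf.avg w).clog K s)).intervalIntegrable _ _)
    (Continuous.intervalIntegrable (by fun_prop) _ _) fun t _ => ?_
  have h := (H.adm t).tangent ((H.avg hw).adm t).fin
  rw [om, (H.lf.omf K w).tsum_apply]
  simp only [smul_apply, H.lf.D_prm_one hw, smul_eq_mul]
  have e : ∑' b, K.gm (a (s + t • 1)) b * (a (s + t • 1) b - An.avg w a (s + t • 1) b) =
      -∑' b, K.gm (a (s + t • 1)) b * (An.avg w a (s + t • 1) b - a (s + t • 1) b) := by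
    rw [← tsum_neg]; exact tsum_congr fun b => by ring
  linarith

theorem LamS_ge (H : Good K g s a) {w : ℕ → ℝ} (hw : ∀ j, 0 < w j) (J : ℕ) :
    Y K a s - Y K (An.seq w a J) s ≤ LamS K w a J s 1 ∧ Y K (An.seq w a J) s ≤ Y K a s := by
  induction J with
  | zero => simp [LamS, An.seq]
  | succ J ih =>
    have h1 := (H.seq hw J).Lam1_ge (hw J)
    have h2 := (H.seq hw J).Y_avg_le (hw J)
    rw [LamS, sum_range_succ, add_apply]
    rw [LamS] at ih
    exact ⟨by rw [An.seq]; linarith [ih.1], h2.trans ih.2⟩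

theorem Y_rcn (H : Good K g s a) :
    2 * Y K a s - 2 * Real.log K.V1 - K.c - Real.log 2 ≤ Y K (An.rcn K a) s := by
  have hc := H.lf.clog K s
  have := integral_mono_on (μ := MeasureTheory.volume) zero_le_one
    (Continuous.intervalIntegrable (by fun_prop) 0 1)
    (((H.lf.rcn K).clog K s).intervalIntegrable 0 1) fun t _ => (H.adm t).rc_log
  simp only [sub_sub] at this ⊢
  rw [integral_sub (Continuous.intervalIntegrable (by fun_prop) _ _) (by simp),
    integral_const_mul] at this
  simpa [Y] using this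

theorem per_pow (H : Good K g s a) (m : ℕ) : ∀ (y : Vn n) (b : G),
    a (y + (m : ℝ) • 1) b = a y (g ^ m * b) := by
  induction m with
  | zero => simp
  | succ m ih =>
    intro y b
    rw [pow_succ, mul_assoc, ← ih, H.per.2 _ (g * b)]
    simp [add_smul, add_assoc]

theorem Y_final (H : Good K g s a) (hw : 0 < w)
    (hd : ∀ b, ∃ m : ℕ, 2 * (m : ℝ) ≤ w ∧ K.F b (g ^ m * b) = 0) :
    Y K (An.avg w a) s ≤ Real.log K.V1 + 3 / 4 * K.c := by
  have key : ∀ t : ℝ, Real.log (K.S (An.avg w a (s + t • 1))) ≤ Real.log K.V1 + 3 / 4 * K.c := by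
    refine fun t => ((H.avg hw).adm t).log_le fun b => ?_
    obtain ⟨m, hm, hF⟩ := hd b
    have hm0 : (0 : ℝ) ≤ m := Nat.cast_nonneg m
    set f : ℝ → ℝ := fun τ => a (s + (t + τ) • 1) b with hf
    have hfc : Continuous f := H.lf.cline s t b
    have hi : ∀ x y, IntervalIntegrable f MeasureTheory.volume x y := hfc.intervalIntegrable
    have hle : ∀ x y, x ≤ y → ∫ τ in x..y, f τ ≤ (y - x) * K.c := fun x y h => by
      simpa using integral_mono_on h (hi x y) (g := fun _ => K.c) (by simp)
        fun τ _ => (H.adm _).le b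
    have h1 : ∀ τ, f τ + f (τ + m) ≤ K.c := fun τ => by
      have := (H.adm (t + τ)).tri b (g ^ m * b)
      rw [← H.per_pow, hF, add_assoc, ← add_smul, add_assoc] at this
      simpa using this
    have h2 : ∫ τ in (0 : ℝ)..w - m, (f τ + f (τ + m)) ≤ (w - m) * K.c := by
      simpa using integral_mono_on (μ := MeasureTheory.volume) (a := 0) (b := w - m) (by linarith)
        (Continuous.intervalIntegrable (by fun_prop) _ _) (g := fun _ => K.c) (by simp)
        fun τ _ => h1 τ
    rw [integral_add (hi _ _) (Continuous.intervalIntegrable (by fun_prop) _ _),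
      integral_comp_add_right f, zero_add, sub_add_cancel] at h2
    have h3 := integral_add_adjacent_intervals (hi 0 (w - m)) (hi (w - m) w)
    have h4 := integral_add_adjacent_intervals (hi 0 m) (hi m w)
    have h5 := hle (w - m) w (by linarith)
    have h6 := hle 0 m hm0
    have h7 := mul_le_mul_of_nonneg_right hm K.c_nonneg
    rw [avg_line, integral_const_mul, inv_mul_le_iff₀ hw]
    change ∫ τ in (0 : ℝ)..w, f τ ≤ _
    nlinarith
  simpa [Y] using integral_mono_on (μ := MeasureTheory.volume) zero_le_one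
    (((H.lf.avg w).clog K s).intervalIntegrable 0 1) (by simp) fun t _ => key t

theorem le_Y (H : Good K g s a) {r : ℝ → ℝ} {β R : ℝ} (hβ : 0 ≤ β) (hr : Continuous r)
    (h1 : ∫ t in (0 : ℝ)..1, r t ≤ R) (h2 : ∀ t : ℝ, ∃ b, K.c - β * r t ≤ a (s + t • 1) b) :
    K.c - β * R - Real.log 2 ≤ Y K a s := by
  have := integral_mono_on (μ := MeasureTheory.volume) zero_le_one
    (f := fun t => K.c - Real.log 2 - β * r t)
    (Continuous.intervalIntegrable (by fun_prop) 0 1)
    ((H.lf.clog K s).intervalIntegrable 0 1) fun t _ => by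
      obtain ⟨b, hb⟩ := h2 t
      linarith [(H.adm t).le_log b]
  rw [integral_sub (by simp) (Continuous.intervalIntegrable (by fun_prop) _ _),
    integral_const_mul] at this
  have h3 := mul_le_mul_of_nonneg_left h1 hβ
  simp only [integral_const, sub_zero, one_smul] at this
  unfold Y
  linarith

end Good

end Vale.Agent.P184.An
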