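import Vale.Agent.P184.An.Mid
import Vale.Agent.P184.An.BaseEst

/-! The analytic core. -/

namespace Vale.Agent.P184.An

open Finset Filter Topology
open scoped ContDiff

variable {G : Type*} [Group G]

/-- the truncated distance kernel -/
noncomputable def ker (l : Len G) (r : ℝ) (hr : 0 ≤ r) : Ker G where
  F x b := 100 * max (r - l.d x b) 0
  c := 100 * r
  W := 100 * (Real.exp r * l.C)
  nonneg x b := by positivity
  le x b := by
    have := l.d_nonneg x b
    have : max (r - l.d x b) 0 ≤ r := max_le (by linarith) hr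
    linarith
  inv h x b := by rw [l.d_mul]
  tri x u u' := by
    have h1 := l.d_nonneg x u
    have h2 := l.d_nonneg x u'
    have h3 := l.d_tri u x u'
    have h4 := l.d_comm u x
    have h5 := le_max_left (r - l.d u u') 0
    have h6 := le_max_right (r - l.d u u') 0
    rcases max_cases (r - l.d x u) 0 with h | h <;> rcases max_cases (r - l.d x u') 0 with h' | h' <;>
      linarith [h.1, h.2, h'.1, h'.2]
  fin x := by
    have h := (l.hasSum_d x).summable.tendsto_cofinite_zero.eventually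
      (gt_mem_nhds (Real.exp_pos (-r)))
    refine (Filter.eventually_cofinite.1 h).subset fun b hb => fun h' => hb ?_
    have := Real.exp_lt_exp.1 h'
    simp only
    rw [max_eq_right (by linarith), mul_zero]
  sum_le x U := by
    rw [← mul_sum]
    refine mul_le_mul_of_nonneg_left ?_ (by norm_num)
    refine le_trans (sum_le_sum fun b _ => ?_) (sum_le_hasSum U
      (fun b _ => by positivity) ((l.hasSum_d x).mul_left (Real.exp r)))
    rw [← Real.exp_add]
    exact max_le (by linarith [Real.add_one_le_exp (r + -l.d x b)]) (Real.exp_pos _).le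

theorem ker_lip (l : Len G) (r : ℝ) (hr : 0 ≤ r) (x x' b : G) :
    |(ker l r hr).F x b - (ker l r hr).F x' b| ≤ 100 * l.d x' x := by
  have h1 := abs_max_sub_max_le_abs (r - l.d x b) (r - l.d x' b) 0
  have h2 := l.abs_d_sub x x' b
  simp only [ker]
  rw [← mul_sub, abs_mul, abs_of_pos (by norm_num : (0 : ℝ) < 100)]
  rw [sub_sub_sub_cancel_left, abs_sub_comm (l.d x' b)] at h1
  linarith

theorem log_V1_le (l : Len G) (r : ℝ) (hr : 0 ≤ r) :
    Real.log (ker l r hr).V1 ≤ Real.log (30000 * l.C) + 2 * r := by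
  have hC := l.one_le_C
  have h1 : r ≤ Real.exp r := by linarith [Real.add_one_le_exp r]
  have h2 : 1 ≤ Real.exp r := Real.one_le_exp hr
  rw [← Real.log_exp (2 * r), ← Real.log_mul (by positivity) (by positivity), two_mul, Real.exp_add]
  refine Real.log_le_log (by linarith [(ker l r hr).one_le_V1]) ?_
  simp only [Ker.V1, ker]
  have h3 : r * r ≤ Real.exp r * Real.exp r := by gcongr
  have h4 : r * Real.exp r * l.C ≤ Real.exp r * Real.exp r * l.C := by gcongr
  have h5 : Real.exp r * Real.exp r ≤ Real.exp r * Real.exp r * l.C :=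
    le_mul_of_one_le_right (by positivity) hC
  nlinarith

theorem exists_param (a b c e η : ℝ) (hη : 0 < η) : ∃ N : ℕ, e ≤ ((N + 1 : ℕ) : ℝ) ^ 2 ∧
    a / (N + 1 : ℕ) + b * (((N + 1 : ℕ) : ℝ) ^ 4 / 2 ^ (N + 1)) + c / (N + 1 : ℕ) ^ 2 ≤ η := by
  have h1 : Tendsto (fun N : ℕ => (N : ℝ) ^ 2) atTop atTop :=
    (tendsto_pow_atTop two_ne_zero).comp tendsto_natCast_atTop_atTop
  have h2 : Tendsto (fun N : ℕ => a / N + b * ((N : ℝ) ^ 4 / 2 ^ N) + c / (N : ℝ) ^ 2) atTop
      (𝓝 (0 + b * 0 + 0)) :=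
    ((tendsto_const_div_atTop_nhds_zero_nat a).add
      ((tendsto_pow_const_div_const_pow_of_one_lt 4 one_lt_two).const_mul b)).add
      (h1.const_div_atTop c)
  have h3 := (h1.eventually_ge_atTop e).and (h2.eventually (ge_mem_nhds (by simpa using hη)))
  exact ((tendsto_add_atTop_nat 1).eventually h3).exists

/-- linear part of a coordinate map -/
def cl {n n' : ℕ} (f : Fin n' → Fin n) : Vn n →L[ℝ] Vn n' :=
  ContinuousLinearMap.pi fun i => ContinuousLinearMap.proj (f i)

theorem natural (K : Ker G) {M : ℝ} (hM : 1 ≤ M) (N1 J : ℕ) (r : ℝ) :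
    Natural fun k g x s => r • tot K M N1 J (base K M g x : Vn (k + 1) → G → ℝ) s := by
  refine ⟨fun k g x s c => ?_, fun k h g x => ?_, fun k g x j s v => ?_, fun k g x s v => ?_⟩
  · have := Per.tot (K := K) (g := g) ⟨rfl, base_per K g x⟩ (base_lf K g hM x) M N1 J s c
    rw [← this]
    congr 2
    funext i
    simp
  · funext s
    congr 1
    ext1 v
    have := Rel.tot (K := K) (L := ContinuousLinearMap.id ℝ _) (c := 0) (h := h)
      ⟨rfl, fun s b => by simpa using base_transl K g h x s b⟩ (base_lf K g hM x)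
      (base_lf K _ hM _) M N1 J s v
    simpa using this.symm
  · have e : ∀ s, cl (fidx j) s + faceS j 0 = faceS j s := fun s => by
      exact (add_comm _ _).trans ((faceS_add j 0 s).symm.trans (by rw [zero_add]))
    have := Rel.tot (K := K) (L := cl (fidx j)) (c := faceS j 0) (h := 1)
      ⟨rfl, fun s b => by rw [e, one_mul]; exact base_face K g x j s b⟩ (base_lf K g hM _)
      (base_lf K g hM x) M N1 J s v
    rw [e] at this
    simp only [smul_apply, this]
    rfl
  · have e0 : ∀ s : Vn (k + 1), cl (ra id) s = ra s := fun s => funext fun i => by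
      refine Fin.cases ?_ (fun j => ?_) i <;> rfl
    have e : ∀ s : Vn (k + 1), cl (ra id) s + rotS 0 = rotS s := fun s => by
      rw [e0]; exact (add_comm _ _).trans ((rotS_add 0 s).symm.trans (by rw [zero_add]))
    have := Rel.tot (K := K) (L := cl (ra id)) (c := rotS 0) (h := 1)
      ⟨rfl, fun s b => by rw [e, one_mul]; exact base_rot K g x s b⟩ (base_lf K g hM _)
      (base_lf K g hM (rot g x)) M N1 J s v
    rw [e, e0] at this
    simp only [smul_apply, this]

theorem good_base (K : Ker G) {M : ℝ} (hM : 1 ≤ M) {k : ℕ} (g : G) (x : Fin (k + 1) → G)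
    {s : Vn (k + 1)} (hs : s ∈ Dl k) : Good K g s (base K M g x) := by
  refine ⟨base_lf K g hM x, ⟨rfl, base_per K g x⟩, fun t => base_adm K g hM x fun i => ?_⟩
  have : s + t • (1 : Vn (k + 1)) = fun i => s i + t := by funext i; simp
  rw [this, dur_shift]
  exact hs i

end Vale.Agent.P184.An

namespace Vale.Agent.P184

open An

theorem anCore {G : Type*} [Group G] (l : Len G) : AnCore l := by
  intro L η hL hη
  obtain ⟨C0, hC0, hb⟩ := exists_base_const G
  have hC1 := l.one_le_C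
  set C := C0 * 100 ^ 2 with hC
  have hC' : 1 ≤ C := by linarith
  obtain ⟨N1, e1, e2⟩ := exists_param (8 * C) (14 * (64 * 100 ^ 2 * C))
    (16 * (17 * l.C) ^ 2 * (2 * C0 * (100 * l.C) ^ 2) ^ 2)
    (400 * L + 3 * Real.log 2 + 3 * Real.log (30000 * l.C)) η hη
  set N : ℝ := ((N1 + 1 : ℕ) : ℝ) with hN
  have hN1 : 1 ≤ N := by rw [hN]; exact_mod_cast Nat.le_add_left 1 N1
  have hr1 : 1 ≤ N ^ 2 := one_le_pow₀ hN1
  have hr : 0 ≤ N ^ 2 := by positivity
  set K := ker l (N ^ 2) hr with hK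
  set E := Real.exp (N ^ 2) with hE
  have hE1 : 1 ≤ E := Real.one_le_exp hr
  set p := ⌈l.C * E⌉₊ with hp
  have hCE : 1 ≤ l.C * E := one_le_mul_of_one_le_of_one_le hC1 hE1
  have hp1 : (1 : ℝ) ≤ p := hCE.trans (Nat.le_ceil _)
  have hp2 : (p : ℝ) ≤ 2 * (l.C * E) := by linarith [Nat.ceil_lt_add_one (zero_le_one.trans hCE)]
  set N3 := 12 * (N1 + 1) ^ 2 with hN3
  refine ⟨N ^ 2, 4 ^ (N1 + 1 + (N3 + 1) + 1), fun M hM => ?_⟩
  have hM' : (4 : ℝ) ^ (N1 + 1 + (N3 + 1) + 1) ≤ M := by exact_mod_cast hM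
  have hM4 : (4 : ℝ) ^ (N1 + 1) ≤ M := (pow_le_pow_right₀ (by norm_num) (by omega)).trans hM'
  have hM1 : (1 : ℝ) ≤ M := (one_le_pow₀ (by norm_num)).trans hM'
  have hM0 : (0 : ℝ) < M := by linarith
  obtain ⟨J, hJ1, hJ2⟩ := exists_nat_pow_near (x := 2 * (p : ℝ) * M / 4 ^ (N1 + 1)) (y := (4 : ℝ))
    (by rw [le_div_iff₀ (by positivity)]; nlinarith) (by norm_num)
  rw [le_div_iff₀ (by positivity)] at hJ1
  rw [div_lt_iff₀ (by positivity)] at hJ2
  have e4 : (4 : ℝ) ^ (N1 + 1 + J + 1) = 4 ^ J * 4 ^ (N1 + 1) * 4 := by ring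
  have hw1 : 2 * (p : ℝ) ≤ wd M (N1 + 1 + J) := by
    rw [wd, le_div_iff₀ hM0, e4]; rw [pow_succ] at hJ2; linarith
  have hw2 : wd M (N1 + 1 + J) ≤ 8 * p := by
    rw [wd, div_le_iff₀ hM0, e4]; linarith
  refine ⟨_, natural K hM1 (N1 + 1) (J + 1) (N ^ 2)⁻¹, fun k g x => ?_, fun k g x s hs => ?_,
    fun k hk g hg x s hs => ⟨fun hd => ?_, ?_⟩⟩
  · exact (((base_lf K g hM1 x).tot K _ _ _).const_smul (N ^ 2)⁻¹).of_le two_le_inf
  · exact mul_nonneg (by positivity) ((good_base K hM1 g x hs).tot_nonneg hM0 _ _)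
  · have hs' : s ∈ Dl k := fun i => (hs i).le
    have H := good_base K hM1 g x hs'
    obtain ⟨r, r1, r2, r3⟩ := base_low K g hM1 l (β := 100) (by norm_num)
      (fun x => by simp [hK, ker, l.d_self, hr]) (ker_lip l _ hr) x hs'
    have h1 := H.le_Y (R := 2 * L) (by norm_num) r1 (r2.trans (by
      rw [div_le_iff₀ hM0]; linarith)) r3
    have h2 := H.tot_low hM0 (N1 + 1) J fun b => by
      obtain ⟨m, -, m2, m3⟩ := hg b
      refine ⟨m, le_trans ?_ hw1, ?_⟩
      · exact mul_le_mul_of_nonneg_left (Nat.cast_le.2 m2) zero_le_two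
      · simp only [hK, ker]
        rw [max_eq_right (by linarith), mul_zero]
    have h3 := log_V1_le l _ hr
    have h4 : K.c = 100 * N ^ 2 := rfl
    rw [smul_apply, smul_eq_mul, le_inv_mul_iff₀ (by positivity)]
    rw [← hK] at h3
    linarith
  · have H := good_base K hM1 g x fun i => (hs i).le
    obtain ⟨b1, b2, b3⟩ := hb K l 100 M (by norm_num) hM1 (ker_lip l _ hr) k g x s hs
    have hc : K.c = 100 * N ^ 2 := rfl
    have hW : K.W = 100 * (E * l.C) := rfl
    have hW1 : 1 ≤ K.W := by rw [hW]; nlinarith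
    obtain ⟨B, B1, B2, B3, B4⟩ := H.tot_sm (rho_pos l hM0 g x hs) (rho_le_one l M g x s)
      (M := M) (C := C) (R := C0 * K.W) (P := 8 * p) (by push_cast; exact hk) hC'
      (by rw [hc]; linarith) (by nlinarith [mul_le_mul hC0 hW1 zero_le_one (by linarith)])
      (by positivity) (J := J + 1) hM'
      (fun j hj => (wd_mono hM0 (by omega)).trans hw2) b1 b2 b3
    refine ⟨B, B1, B2, B3, (B4.smul ((base_lf K g hM1 x).tot K _ _ _)
      (show 0 ≤ (N ^ 2)⁻¹ by positivity)).mono (fun v => Real.sqrt_nonneg _) ?_⟩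
    rw [← mul_assoc]
    refine mul_le_mul_of_nonneg_right (le_trans ?_ e2) hM0.le
    rw [mul_add, mul_add]
    refine add_le_add (add_le_add (le_of_eq (by rw [← hN]; field_simp)) ?_) ?_
    · have : ((N3 + 2 : ℕ) : ℝ) ≤ 14 * N ^ 2 := by
        have : ((N3 + 2 : ℕ) : ℝ) = 12 * N ^ 2 + 2 := by rw [hN3, hN]; push_cast; ring
        linarith
      calc _ ≤ (N ^ 2)⁻¹ * (14 * N ^ 2 * (64 * K.c ^ 2 * C / 2 ^ (N1 + 1))) := by gcongr
        _ = _ := by rw [hc]; field_simp
    · have h1 : E ^ 6 ≤ 2 ^ N3 := by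
        have : N ^ 2 = (((N1 + 1) ^ 2 : ℕ) : ℝ) * 1 := by rw [hN]; push_cast; ring
        rw [hE, this, Real.exp_nat_mul, ← pow_mul, hN3,
          show 12 * (N1 + 1) ^ 2 = 2 * ((N1 + 1) ^ 2 * 6) by ring, pow_mul 2 2]
        exact pow_le_pow_left₀ (Real.exp_pos _).le
          (by linarith [Real.exp_one_lt_d9]) _
      have h2 : 1 + 8 * (p : ℝ) ≤ 17 * l.C * E := by linarith
      calc _ ≤ (N ^ 2)⁻¹ * (16 * (17 * l.C * E) ^ 2 * (2 * K.W * (C0 * K.W)) ^ 2 / E ^ 6) := by gcongr
        _ = _ := by rw [hW]; field_simp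

end Vale.Agent.P184
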