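import Vale.Agent.P184.An.Form

/-! The total one-form built on an abstract level zero. -/

namespace Vale.Agent.P184.An

open Finset
open scoped ContDiff

variable {G : Type*} [Group G] {n : ℕ} {K : Ker G} {g : G} {s : Vn n} {a : Vn n → G → ℝ}
  {N : Vn n → ℝ}

/-- the windows -/
noncomputable def wd (M : ℝ) (j : ℕ) : ℝ := 4 ^ (j + 1) / M

theorem wd_pos {M : ℝ} (hM : 0 < M) (j : ℕ) : 0 < wd M j := by unfold wd; positivity

theorem wd_succ (M : ℝ) (j : ℕ) : wd M (j + 1) = 4 * wd M j := by unfold wd; ring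

theorem wd_mono {M : ℝ} (hM : 0 < M) {i j : ℕ} (h : i ≤ j) : wd M i ≤ wd M j :=
  div_le_div_of_nonneg_right (pow_le_pow_right₀ (by norm_num) (by omega)) hM.le

/-- second stage start -/
noncomputable def snd (K : Ker G) (M : ℝ) (N1 : ℕ) (a : Vn n → G → ℝ) : Vn n → G → ℝ :=
  rcn K (seq (wd M) a N1)

/-- the total form -/
noncomputable def tot (K : Ker G) (M : ℝ) (N1 J : ℕ) (a : Vn n → G → ℝ) (s : Vn n) :
    Vn n →L[ℝ] ℝ :=
  LamS K (wd M) a N1 s + LamS K (fun j => wd M (N1 + j)) (snd K M N1 a) J s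

theorem LF.snd (ha : LF a) (K : Ker G) (M : ℝ) (N1 : ℕ) : LF (snd K M N1 a) := (ha.seq _ _).rcn K

theorem LF.tot (ha : LF a) (K : Ker G) (M : ℝ) (N1 J : ℕ) : ContDiff ℝ ∞ (tot K M N1 J a) :=
  (ha.LamS K _ _).add ((ha.snd K M N1).LamS K _ _)

theorem Rel.tot {n' : ℕ} {L : Vn n →L[ℝ] Vn n'} {c : Vn n'} {h : G} {a' : Vn n' → G → ℝ}
    (H : Rel L c h a a') (ha : LF a) (ha' : LF a') (M : ℝ) (N1 J : ℕ) (s v : Vn n) :
    tot K M N1 J a s v = tot K M N1 J a' (L s + c) (L v) := by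
  simp only [An.tot, add_apply]
  rw [H.LamS K ha ha', Rel.LamS (a := snd K M N1 a) (a' := snd K M N1 a') K ((H.seq _ N1).rcn K)
    (ha.snd K M N1) (ha'.snd K M N1)]

theorem Per.tot (H : Per g a) (ha : LF a) (M : ℝ) (N1 J : ℕ) (s : Vn n) (c : ℝ) :
    tot K M N1 J a (s + c • 1) = tot K M N1 J a s := by
  simp only [An.tot]
  rw [H.LamS_shift K ha, Per.LamS_shift (g := g) (a := snd K M N1 a) K ((Rel.seq H _ N1).rcn K) (ha.snd K M N1)]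

theorem Good.snd (H : Good K g s a) {M : ℝ} (hM : 0 < M) (N1 : ℕ) : Good K g s (snd K M N1 a) :=
  (H.seq (wd_pos hM) N1).rcn

theorem Good.tot_nonneg (H : Good K g s a) {M : ℝ} (hM : 0 < M) (N1 J : ℕ) :
    0 ≤ tot K M N1 J a s 1 := by
  have h1 := H.LamS_ge (wd_pos hM) N1
  have h2 := (H.snd hM N1).LamS_ge (w := fun j => wd M (N1 + j)) (fun j => wd_pos hM _) J
  rw [tot, add_apply]
  linarith [h1.1, h1.2, h2.1, h2.2]

theorem Good.tot_low (H : Good K g s a) {M : ℝ} (hM : 0 < M) (N1 J : ℕ)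
    (hd : ∀ b, ∃ m : ℕ, 2 * (m : ℝ) ≤ wd M (N1 + J) ∧ K.F b (g ^ m * b) = 0) :
    2 * Y K a s - 7 / 4 * K.c - Real.log 2 - 3 * Real.log K.V1 ≤ 2 * tot K M N1 (J + 1) a s 1 := by
  have hw : ∀ j, 0 < wd M (N1 + j) := fun j => wd_pos hM _
  have h1 := H.LamS_ge (wd_pos hM) N1
  have h2 := (H.snd hM N1).LamS_ge hw (J + 1)
  have h3 := (H.seq (wd_pos hM) N1).Y_rcn
  have h4 := ((H.snd hM N1).seq hw J).Y_final (hw J) hd
  rw [tot, add_apply]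
  rw [An.seq] at h2
  rw [← An.snd] at h3
  linarith [h1.1, h1.2, h2.1, h2.2]

omit [Group G] in
theorem W2.of_le {N' : Vn n → ℝ} {ρ ρ' : ℝ} (H : W2 N a s ρ) (h : ∀ v, ρ * N v ^ 2 ≤ ρ' * N' v ^ 2) :
    W2 N' a s ρ' := fun v b t => (H v b t).trans (h v)

omit [Group G] in
theorem Pt.of_le {N' : Vn n → ℝ} {ρ ρ' : ℝ} (H : Pt N a s ρ) (h : ∀ v, ρ * N v ^ 2 ≤ ρ' * N' v ^ 2) :
    Pt N' a s ρ' := fun v b t => (H v b t).trans (h v)

theorem one_le_inv_mul {w : ℝ} (hw : 0 < w) : 1 ≤ w⁻¹ * (w + 1) := by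
  rw [le_inv_mul_iff₀ hw]; linarith

theorem Good.sm_succ (H : Good K g s a) (hN : ∀ v, 0 ≤ N v) {w ρ P : ℝ} (hw : 0 < w) (hρ : 1 ≤ ρ)
    (hP : 4 * w ≤ P) (h : W2 N a s ρ) : Sm N (Lam1 K (4 * w) (An.avg w a)) s (4 * (1 + P) * ρ) := by
  obtain ⟨h1, h2⟩ := h.avg H.lf hw
  have hP0 : 0 ≤ P := by linarith
  refine (H.avg hw).sm_sq hN (by positivity) (one_le_mul_of_one_le_of_one_le (one_le_inv_mul hw) hρ)
    (by linarith) (by positivity) h2 h1 ?_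
  have e : 4 * (w⁻¹ * (w + 1) * ρ) * (4 * w * (4 * w + 1) * ρ) =
      16 * ((w + 1) * (4 * w + 1)) * ρ ^ 2 := by field_simp; ring
  have e2 : (w + 1) * (4 * w + 1) ≤ (1 + P) * (1 + P) :=
    mul_le_mul (by linarith) (by linarith) (by linarith) (by linarith)
  rw [e]
  nlinarith [mul_le_mul_of_nonneg_right e2 (sq_nonneg ρ)]

theorem Good.sm_one (H : Good K g s a) (hN : ∀ v, 0 ≤ N v) {M C : ℝ} (hM : 1 ≤ M) (hC : 1 ≤ C)
    {N1 : ℕ} (hN1 : wd M N1 ≤ 1) (h1 : W2 N a s (C * M)) (h2 : Pt N a s (C * M ^ 2)) :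
    Sm N (LamS K (wd M) a N1) s (N1 * (8 * C * M)) := by
  have hM0 : 0 < M := by linarith
  have := Sm.sum (N := N) (s := s) (c := fun _ => 8 * C * M)
    (fun j => (H.lf.seq (wd M) j).Lam1 K (wd M j)) N1 fun j hj => ?_
  · rw [sum_const, card_range, nsmul_eq_mul] at this
    exact this
  have hj1 := (wd_mono hM0 hj.le).trans hN1
  have hCM : 1 ≤ C * M := one_le_mul_of_one_le_of_one_le hC hM
  cases j with
  | zero =>
    refine H.sm_sq hN (wd_pos hM0 0) (one_le_mul_of_one_le_of_one_le hC (one_le_pow₀ hM))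
      (by linarith) (by positivity) h2 h1 ?_
    have e : 4 * (C * M ^ 2) * (wd M 0 * (wd M 0 + 1) * (C * M)) =
        16 * (wd M 0 + 1) * (C * M) ^ 2 := by
      rw [show wd M 0 * (wd M 0 + 1) = 4 / M * (wd M 0 + 1) by simp [wd]]; field_simp; ring
    rw [e]
    nlinarith [sq_nonneg (C * M)]
  | succ j =>
    rw [wd_succ] at hj1 ⊢
    refine ((H.seq (wd_pos hM0) j).sm_succ hN (wd_pos hM0 j) hCM hj1
      (h1.seq H.lf (wd_pos hM0) j)).mono hN (le_of_eq (by ring))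

theorem sum_cost (E2 E4 : ℝ) (h2 : 0 ≤ E2) (h4 : 0 ≤ E4) (m J : ℕ) :
    ∑ j ∈ range J, (if j < m then E2 else E4 / 2 ^ j) ≤ m * E2 + 2 * E4 := by
  have h1 : ∑ j ∈ range J, (if j < m then E2 else 0) ≤ m * E2 := by
    rw [← sum_filter, sum_const, nsmul_eq_mul]
    refine mul_le_mul_of_nonneg_right (Nat.cast_le.2 ?_) h2
    exact (card_le_card fun j hj => mem_range.2 (mem_filter.1 hj).2).trans (card_range m).le
  have h3 : ∑ j ∈ range J, E4 / 2 ^ j ≤ 2 * E4 := by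
    have := mul_le_mul_of_nonneg_right (sum_geometric_two_le J) h4
    rw [sum_mul] at this
    refine le_trans (le_of_eq (sum_congr rfl fun j _ => ?_)) this
    rw [one_div, inv_pow, div_eq_inv_mul]
  refine le_trans ?_ (add_le_add h1 h3)
  rw [← sum_add_distrib]
  refine sum_le_sum fun j _ => ?_
  have : 0 ≤ E4 / 2 ^ j := by positivity
  split_ifs <;> linarith

theorem Good.sm_two (H : Good K g s a) (hN : ∀ v, 0 ≤ N v) {M A ρ2 E2 E4 P : ℝ} (hM : 0 < M)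
    {N1 N3 J : ℕ} {ρ3 : ℕ → ℝ} (hw1 : wd M (N1 + (N3 + 1)) ≤ 1) (hJ : ∀ j < J, wd M (N1 + j) ≤ P)
    (hA : 1 ≤ A) (hρ2 : 1 ≤ ρ2) (hρ3 : ∀ m, 1 ≤ ρ3 m) (hE4 : 0 ≤ E4) (h1 : Pt N a s A)
    (h2 : W2 N a s ρ2)
    (h3 : ∀ m < J, W2 N (An.seq (fun j => wd M (N1 + j)) a (N3 + m + 1)) s (ρ3 m))
    (e1 : 8 * A * wd M N1 * ρ2 ≤ E2 ^ 2) (e2 : 8 * ρ2 ≤ E2)
    (e3 : ∀ m, N3 + m < J → 4 * (1 + P) * ρ3 m ≤ E4 / 2 ^ (N3 + m + 2)) :
    Sm N (LamS K (fun j => wd M (N1 + j)) a J) s ((N3 + 2 : ℕ) * E2 + 2 * E4) := by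
  have hw : ∀ j, 0 < wd M (N1 + j) := fun j => wd_pos hM _
  have hE2 : 0 ≤ E2 := by linarith
  refine (Sm.sum (N := N) (s := s) (c := fun j => if j < N3 + 2 then E2 else E4 / 2 ^ j)
    (fun j => (H.lf.seq _ j).Lam1 K (wd M (N1 + j))) J fun j hj => ?_).mono hN
    (sum_cost E2 E4 hE2 hE4 _ _)
  split_ifs with hj2
  · have hj1 : wd M (N1 + j) ≤ 1 := (wd_mono hM (by omega)).trans hw1
    cases j with
    | zero =>
      refine H.sm_sq hN (hw 0) hA (by linarith) hE2 h1 h2 (le_trans ?_ e1)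
      have := hw 0
      simp only [add_zero] at *
      have h4 : 0 ≤ A * wd M N1 * ρ2 := by positivity
      nlinarith
    | succ j =>
      rw [← add_assoc, wd_succ] at hj1 ⊢
      exact ((H.seq hw j).sm_succ hN (hw j) hρ2 hj1 (h2.seq H.lf hw j)).mono hN (by linarith)
  · obtain ⟨m, rfl⟩ : ∃ m, j = N3 + m + 1 + 1 := ⟨j - (N3 + 2), by omega⟩
    have hj1 := hJ _ hj
    rw [← add_assoc, wd_succ] at hj1 ⊢
    exact ((H.seq hw _).sm_succ hN (hw _) (hρ3 m) hj1 (h3 m (by omega))).mono hN (e3 m (by omega))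

theorem Good.tot_sm (H : Good K g s a) {ρ : Vn n} (hρ : ∀ i, 0 < ρ i) (hρ1 : ∀ i, ρ i ≤ 1)
    {M C R P : ℝ} (hn : (n : ℝ) ≤ M) (hC : 1 ≤ C) (hc : 1 ≤ K.c) (hR : 1 ≤ 2 * K.W * R) (hP : 0 ≤ P)
    {N1 N3 J : ℕ} (hM : 4 ^ (N1 + 1 + (N3 + 1) + 1) ≤ M) (hJ : ∀ j < J, wd M (N1 + 1 + j) ≤ P)
    (h1 : ∀ v b, Win (fun t : ℝ => D a (s + t • 1) b v ^ 2) (C * M * ∑ i, v i ^ 2 / ρ i ^ 2))
    (h2 : ∀ v b (t : ℝ), D a (s + t • 1) b v ^ 2 ≤ C * M ^ 2 * ∑ i, v i ^ 2 / ρ i ^ 2)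
    (h3 : ∀ i, W1 a s (Pi.single i 1) R) :
    ∃ B : Vn n →L[ℝ] Vn n →L[ℝ] ℝ, (∀ v w, B v w = B w v) ∧ (∀ v, 0 ≤ B v v) ∧
      ∑ i, ρ i ^ 2 * B (Pi.single i 1) (Pi.single i 1) ≤ 4 * M ∧
      Sm (nrm ρ B) (tot K M (N1 + 1) J a) s (((N1 + 1 : ℕ) * (8 * C) +
        (N3 + 2 : ℕ) * (64 * K.c ^ 2 * C / 2 ^ (N1 + 1)) +
        16 * (1 + P) ^ 2 * (2 * K.W * R) ^ 2 / 2 ^ N3) * M) := by
  have hM1 : 1 ≤ M := (one_le_pow₀ (by norm_num)).trans hM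
  have hM0 : 0 < M := by linarith
  have hM4 : (4 : ℝ) ^ (N1 + 1) ≤ M := (pow_le_pow_right₀ (by norm_num) (by omega)).trans hM
  have hw1 : wd M (N1 + 1 + (N3 + 1)) ≤ 1 := (div_le_one hM0).2 hM
  set w' : ℕ → ℝ := fun j => wd M (N1 + 1 + j) with hw'
  have hw : ∀ j, 0 < w' j := fun j => wd_pos hM0 _
  set R' := 2 * K.W * R with hR'
  have H1 := H.seq (wd_pos hM0) (N1 + 1)
  have H2 := H.snd hM0 (N1 + 1)
  set a1 := An.seq (wd M) a (N1 + 1) with ha1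
  set a2 := An.snd K M (N1 + 1) a with ha2
  have hq : ∀ b : G, ContDiff ℝ ∞ fun s : Vn n => (fun _ _ => (1 : ℝ)) s b := fun _ => contDiff_const
  set A := 2 * C * M ^ 2 / 4 ^ (N1 + 1) with hA
  have hA0 : 0 < A := by positivity
  set ρ3 : ℕ → ℝ := fun m => 2 ^ (m + 1) * ((w' (N3 + m))⁻¹ * (w' (N3 + m) + 1) * R' ^ 2) with hρ3
  have hρ31 : ∀ m, 1 ≤ ρ3 m := fun m => one_le_mul_of_one_le_of_one_le (one_le_pow₀ (by norm_num))
    (one_le_mul_of_one_le_of_one_le (one_le_inv_mul (hw _)) (one_le_pow₀ hR))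
  have hρ30 : ∀ m, 0 < ρ3 m := fun m => by linarith [hρ31 m]
  set Q1 := QF (fun s => K.gn (a1 s)) a1 s with hQ1
  set Q3 := fun m => QF (fun _ _ => 1) (An.seq w' a2 (N3 + m + 1)) s with hQ3
  have q1 : ∀ v, 0 ≤ M / A * Q1 v v := fun v => mul_nonneg (by positivity)
    (H1.lf.QF_nonneg (H1.lf.gn K).1 (fun t => (H1.adm t).gn_nonneg) v)
  have q3 : ∀ m v, 0 ≤ (ρ3 m)⁻¹ * Q3 m v v := fun m v => mul_nonneg (inv_pos.2 (hρ30 m)).le
    ((H2.lf.seq _ _).QF_nonneg hq (fun _ _ => zero_le_one) v)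
  set B : Vn n →L[ℝ] Vn n →L[ℝ] ℝ := (M / A) • Q1 + ∑ m ∈ range J, (ρ3 m)⁻¹ • Q3 m with hBd
  have hB : ∀ v v', B v v' = M / A * Q1 v v' + ∑ m ∈ range J, (ρ3 m)⁻¹ * Q3 m v v' := fun v v' => by
    simp [hBd, _root_.sum_apply]
  have hB0 : ∀ v, 0 ≤ B v v := fun v => by
    rw [hB]; exact add_nonneg (q1 v) (sum_nonneg fun m _ => q3 m v)
  have hs0 : ∀ v : Vn n, 0 ≤ ∑ i, v i ^ 2 / ρ i ^ 2 := fun v => sum_nonneg fun i _ => by positivity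
  have hN2 : ∀ v, nrm ρ B v ^ 2 = ∑ i, v i ^ 2 / ρ i ^ 2 + B v v := fun v =>
    Real.sq_sqrt (add_nonneg (hs0 v) (hB0 v))
  have hN : ∀ v, 0 ≤ nrm ρ B v := fun v => Real.sqrt_nonneg _
  have hN0 : ∀ v : Vn n, √(∑ i, v i ^ 2 / ρ i ^ 2) ^ 2 = ∑ i, v i ^ 2 / ρ i ^ 2 := fun v =>
    Real.sq_sqrt (hs0 v)
  have g1 : W2 (fun v => √(∑ i, v i ^ 2 / ρ i ^ 2)) a s (C * M) := fun v b => by
    rw [hN0]; exact h1 v b
  have g2 : Pt (fun v => √(∑ i, v i ^ 2 / ρ i ^ 2)) a1 s A := by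
    refine ((g1.seq H.lf (wd_pos hM0) N1).avg (H.lf.seq _ N1) (wd_pos hM0 N1)).2.of_le fun v =>
      mul_le_mul_of_nonneg_right ?_ (sq_nonneg _)
    have : wd M N1 + 1 ≤ 2 := by linarith [(wd_mono hM0 (show N1 ≤ _ by omega)).trans hw1]
    calc _ ≤ (wd M N1)⁻¹ * 2 * (C * M) := by have := wd_pos hM0 N1; gcongr
      _ = A := by rw [hA, wd]; field_simp
  have hle : ∀ {x : ℝ}, 0 ≤ x → ∀ v, x * √(∑ i, v i ^ 2 / ρ i ^ 2) ^ 2 ≤ x * nrm ρ B v ^ 2 :=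
    fun hx v => mul_le_mul_of_nonneg_left (by rw [hN0, hN2]; linarith [hB0 v]) hx
  refine ⟨B, fun v v' => ?_, hB0, ?_, ?_⟩
  · rw [hB, hB, hQ1, H1.lf.QF_symm (H1.lf.gn K).1]
    simp only [hQ3, (H2.lf.seq _ _).QF_symm hq s v]
  · have t1 := H1.trace_gn hρ hA0.le fun v b t => by rw [← hN0]; exact g2 v b t
    have t3 : ∀ m i, ρ i ^ 2 * ((ρ3 m)⁻¹ * Q3 m (Pi.single i 1) (Pi.single i 1)) ≤ (1 / 2) ^ m := by
      intro m i
      have h4 := ((H1.W1_rcn ((h3 i).seq H.lf (wd_pos hM0) (N1 + 1))).seq H2.lf hw (N3 + m)).trace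
        (H2.lf.seq _ _) (hw (N3 + m))
      refine (mul_le_of_le_one_left (q3 m _) (pow_le_one₀ (hρ i).le (hρ1 i))).trans ?_
      rw [inv_mul_le_iff₀ (hρ30 m)]
      refine h4.trans ?_
      have : ρ3 m * (1 / 2) ^ m = 2 * ((w' (N3 + m))⁻¹ * (w' (N3 + m) + 1) * R' ^ 2) := by
        rw [hρ3, one_div, inv_pow]; field_simp; ring
      have h5 := hw (N3 + m)
      rw [this]
      exact le_mul_of_one_le_left (by positivity) one_le_two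
    simp only [hB, mul_add, sum_add_distrib, mul_left_comm (ρ _ ^ 2) (M / A), ← mul_sum _ _ (M / A)]
    have t2 : M / A * ∑ i, ρ i ^ 2 * Q1 (Pi.single i 1) (Pi.single i 1) ≤ M :=
      (mul_le_mul_of_nonneg_left t1 (by positivity)).trans (le_of_eq (by field_simp))
    have t4 : ∑ i, ρ i ^ 2 * ∑ m ∈ range J, (ρ3 m)⁻¹ * Q3 m (Pi.single i 1) (Pi.single i 1) ≤
        ∑ _i : Fin n, (2 : ℝ) := sum_le_sum fun i _ => by
      rw [mul_sum]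
      exact (sum_le_sum fun m _ => t3 m i).trans (sum_geometric_two_le J)
    rw [sum_const, card_univ, Fintype.card_fin, nsmul_eq_mul] at t4
    linarith
  · have hc2 : 1 ≤ K.c ^ 2 := one_le_pow₀ hc
    have hAM : 2 ≤ A / M := by
      rw [hA, le_div_iff₀ hM0, le_div_iff₀ (by positivity)]
      nlinarith [mul_le_mul_of_nonneg_right hC (sq_nonneg M)]
    have hA1 : 1 ≤ A := by rw [le_div_iff₀ hM0] at hAM; linarith
    have s1 := H.sm_one hN hM1 hC ((wd_mono hM0 (show N1 + 1 ≤ _ by omega)).trans hw1)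
      (g1.of_le (hle (by positivity))) fun v b t => (h2 v b t).trans (by
        rw [← hN0]; exact hle (by positivity) v)
    have s2 := H2.sm_two hN hM0 (ρ3 := ρ3) (E2 := 64 * K.c ^ 2 * C / 2 ^ (N1 + 1) * M)
      (E4 := 8 * (1 + P) ^ 2 * R' ^ 2 / 2 ^ N3 * M) (ρ2 := 4 * K.c ^ 2 * (A / M)) hw1 hJ
      (A := 4 * K.c ^ 2 * A) (by nlinarith) (by nlinarith) hρ31 (by positivity)
      (H1.Pt_rcn (g2.of_le (hle hA0.le))) (H1.W2_rcn fun v => ?_)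
      (fun m hm => (H2.seq hw _).W2_self fun v => ?_) ?_ ?_ fun m hm => ?_
    · refine (s1.add s2 (H.lf.LamS K _ _) (H2.lf.LamS K _ _)).mono hN (le_of_eq (by ring))
    · have := sum_nonneg fun m (_ : m ∈ range J) => q3 m v
      have h6 : M / A * Q1 v v ≤ nrm ρ B v ^ 2 := by rw [hN2, hB]; linarith [hs0 v]
      rwa [← inv_div, inv_mul_le_iff₀ (by positivity)] at h6
    · have := single_le_sum (fun m (_ : m ∈ range J) => q3 m v) (mem_range.2 hm)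
      have h6 : (ρ3 m)⁻¹ * Q3 m v v ≤ nrm ρ B v ^ 2 := by rw [hN2, hB]; linarith [hs0 v, q1 v]
      rwa [inv_mul_le_iff₀ (hρ30 m)] at h6
    · have e4 : (4 : ℝ) ^ (N1 + 1) = (2 ^ (N1 + 1)) ^ 2 := by rw [← pow_mul, mul_comm, pow_mul]; norm_num
      have : 8 * (4 * K.c ^ 2 * A) * wd M (N1 + 1) * (4 * K.c ^ 2 * (A / M)) =
          (64 * K.c ^ 2 * C / 2 ^ (N1 + 1) * M) ^ 2 / 2 := by
        rw [wd, pow_succ 4 (N1 + 1), hA, e4]; field_simp; ring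
      rw [this]
      exact half_le_self (sq_nonneg _)
    · have e4 : (2 : ℝ) ^ (N1 + 1) ≤ 4 ^ (N1 + 1) := pow_le_pow_left₀ (by norm_num) (by norm_num) _
      calc _ = 64 * K.c ^ 2 * C / 4 ^ (N1 + 1) * M := by rw [hA]; field_simp; ring
        _ ≤ _ := by gcongr
    · have h6 : w' (N3 + m) ≤ P := hJ _ hm
      have h7 := hw (N3 + m)
      have e4 : (2 : ℝ) ^ (N3 + m) * 2 ^ (N3 + m) * 4 ≤ 4 ^ (N1 + 1 + (N3 + m) + 1) := by
        rw [← mul_pow, pow_succ]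
        refine mul_le_mul_of_nonneg_right ?_ (by norm_num)
        exact (le_of_eq (by norm_num)).trans (pow_le_pow_right₀ (a := (4 : ℝ)) (by norm_num)
          (show N3 + m ≤ _ by omega))
      have h8 : (w' (N3 + m))⁻¹ ≤ M / (2 ^ (N3 + m) * 2 ^ (N3 + m) * 4) := by
        simp only [hw', wd, inv_div]; gcongr
      calc _ ≤ 4 * (1 + P) * (2 ^ (m + 1) *
            (M / (2 ^ (N3 + m) * 2 ^ (N3 + m) * 4) * (P + 1) * R' ^ 2)) := by
            simp only [hρ3]; gcongr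
        _ = _ := by field_simp; ring

end Vale.Agent.P184.An
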