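import Vale.Agent.P184.Iface
import Vale.Agent.P184.An.Low

/-! Upper bounds: the mass of one level. -/

namespace Vale.Agent.P184.An

open Finset intervalIntegral
open scoped ContDiff

variable {G : Type*} [Group G] {n : ℕ} {K : Ker G} {g : G} {s : Vn n} {a : Vn n → G → ℝ} {w : ℝ}
  {N : Vn n → ℝ}

/-- the form and its exterior derivative are small at `s` -/
def Sm (N : Vn n → ℝ) (Λ : Vn n → Vn n →L[ℝ] ℝ) (s : Vn n) (c : ℝ) : Prop :=
  CBd N (Λ s) c ∧ AMass N (fderiv ℝ Λ s) c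

theorem Sm.mono {Λ : Vn n → Vn n →L[ℝ] ℝ} {c c' : ℝ} (H : Sm N Λ s c) (hN : ∀ v, 0 ≤ N v)
    (h : c ≤ c') : Sm N Λ s c' :=
  ⟨⟨H.1.1.trans h, fun v => (H.1.2 v).trans (mul_le_mul_of_nonneg_right h (hN v))⟩,
    H.1.1.trans h, fun L C hC h1 h2 => (H.2.2 L C hC h1 h2).trans (mul_le_mul_of_nonneg_left h hC)⟩

theorem Sm.add {Λ Λ' : Vn n → Vn n →L[ℝ] ℝ} {c c' : ℝ} (H : Sm N Λ s c) (H' : Sm N Λ' s c')
    (hΛ : ContDiff ℝ ∞ Λ) (hΛ' : ContDiff ℝ ∞ Λ') : Sm N (fun s => Λ s + Λ' s) s (c + c') := by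
  refine ⟨⟨add_nonneg H.1.1 H'.1.1, fun v => ?_⟩, add_nonneg H.1.1 H'.1.1, fun L C hC h1 h2 => ?_⟩
  · rw [add_apply, add_mul]
    exact (abs_add_le _ _).trans (add_le_add (H.1.2 v) (H'.1.2 v))
  · rw [fderiv_fun_add (hΛ.differentiable (by simp) s) (hΛ'.differentiable (by simp) s), map_add,
      mul_add]
    exact (abs_add_le _ _).trans (add_le_add (H.2.2 L C hC h1 h2) (H'.2.2 L C hC h1 h2))

theorem Sm.smul {Λ : Vn n → Vn n →L[ℝ] ℝ} {c r : ℝ} (H : Sm N Λ s c) (hΛ : ContDiff ℝ ∞ Λ)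
    (hr : 0 ≤ r) : Sm N (fun s => r • Λ s) s (r * c) := by
  refine ⟨⟨mul_nonneg hr H.1.1, fun v => ?_⟩, mul_nonneg hr H.1.1, fun L C hC h1 h2 => ?_⟩
  · rw [smul_apply, smul_eq_mul, abs_mul, abs_of_nonneg hr, mul_assoc]
    exact mul_le_mul_of_nonneg_left (H.1.2 v) hr
  · rw [fderiv_fun_const_smul (hΛ.differentiable (by simp) s), map_smul, smul_eq_mul, abs_mul,
      abs_of_nonneg hr, mul_left_comm]
    exact mul_le_mul_of_nonneg_left (H.2.2 L C hC h1 h2) hr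

theorem Sm.sum {Λ : ℕ → Vn n → Vn n →L[ℝ] ℝ} {c : ℕ → ℝ} (hΛ : ∀ j, ContDiff ℝ ∞ (Λ j)) (J : ℕ)
    (H : ∀ j < J, Sm N (Λ j) s (c j)) :
    Sm N (fun s => ∑ j ∈ range J, Λ j s) s (∑ j ∈ range J, c j) := by
  induction J with
  | zero => exact ⟨⟨by simp, by simp⟩, by simp, fun L C _ _ _ => by simp⟩
  | succ J ih =>
    simp only [sum_range_succ]
    exact (ih fun j hj => H j (by omega)).add (H J (by omega)) (ContDiff.sum fun j _ => hΛ j) (hΛ J)

theorem Ker.Adm.abs_sum_le {a m f : G → ℝ} (ha : K.Adm a) (h0 : ∀ b, 0 ≤ m b)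
    (h1 : ∀ b, m b ≤ K.gn a b) {B : ℝ} (hf : ∀ b, |f b| ≤ B) (U : Finset G) :
    |∑ b ∈ U, m b * f b| ≤ B := by
  have hB : 0 ≤ B := (abs_nonneg _).trans (hf 1)
  refine (abs_sum_le_sum_abs _ _).trans ?_
  calc _ ≤ ∑ b ∈ U, K.gn a b * B := sum_le_sum fun b _ => by
        rw [abs_mul, abs_of_nonneg (h0 b)]
        exact mul_le_mul (h1 b) (hf b) (abs_nonneg _) ((h0 b).trans (h1 b))
    _ ≤ B := by rw [← sum_mul]; exact mul_le_of_le_one_left hB (ha.sum_gn_le U)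

theorem cbd_gm (ha : K.Adm (a s)) {A : Vn n → G → Vn n →L[ℝ] ℝ} {β : ℝ}
    (h : ∀ b, CBd N (A s b) β) : CBd N (∑' b, K.gm (a s) b • A s b) β := by
  refine ⟨(h 1).1, fun v => ?_⟩
  rw [tsum_eq_sum (s := ha.fin.toFinset) fun b hb => by
    have : a s b = 0 := by simpa using hb
    simp [Ker.gm, this]]
  simp only [_root_.sum_apply, smul_apply, smul_eq_mul]
  exact ha.abs_sum_le ha.gm_nonneg ha.gm_le_gn (fun b => (h b).2 v) _

theorem two_le_inf : (2 : WithTop ℕ∞) ≤ ∞ := WithTop.coe_le_coe.2 (le_top (a := (2 : ℕ∞)))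

theorem om_mass (hl : LF a) (ha : K.Adm (a s)) {α β : ℝ} (h1 : ∀ b, CBd N (D a s b) α)
    (h2 : ∀ b, CBd N (D (prm w a) s b) β) : AMass N (fderiv ℝ (om K w a) s) (2 * α * β) := by
  have hα := (h1 1).1
  have hβ := (h2 1).1
  refine ⟨by positivity, fun L C hC hS hL => ?_⟩
  set y := ∑' x, K.gm (a s) x • D a s x with hy
  have hy' : CBd N y α := cbd_gm ha h1
  have e : ∀ b, D (fun s b => K.gm (a s) b • D (prm w a) s b) s b =
      K.gm (a s) b • D (D (prm w a)) s b +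
        (K.gn (a s) b • (D a s b).smulRight (D (prm w a) s b) +
          (-K.gm (a s) b) • y.smulRight (D (prm w a) s b)) := fun b => by
    rw [D, (((hl.gm K).diff b s).fun_smul ((hl.prm w).D.diff b s)).fderiv, hl.D_gm]
    congr 1
    ext v v'
    simp [hy]
    ring
  have e0 : ∀ b, L (D (D (prm w a)) s b) = 0 := fun b => hS _ fun v v' =>
    (((hl.prm w).1 b).contDiffAt.isSymmSndFDerivAt (by simpa using two_le_inf)).eq v v'
  have := ((hl.omf K w).hasFDerivAt_tsum s).fderiv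
  change fderiv ℝ (om K w a) s = _ at this
  rw [this, tsum_eq_sum (s := ha.fin.toFinset) fun b hb => by
    have : a s b = 0 := by simpa using hb
    rw [e]; ext v v'; simp [Ker.gm, Ker.gn, this]]
  simp only [e, map_sum, map_add, map_smul, e0, smul_eq_mul, mul_zero, zero_add, neg_mul,
    ← sub_eq_add_neg, sum_sub_distrib]
  have b1 := ha.abs_sum_le ha.gn_nonneg (fun _ => le_rfl) (fun b => hL _ _ _ _ (h1 b) (h2 b))
    ha.fin.toFinset
  have b2 := ha.abs_sum_le ha.gm_nonneg ha.gm_le_gn (fun b => hL _ _ _ _ hy' (h2 b))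
    ha.fin.toFinset
  refine (abs_sub _ _).trans ?_
  linarith

theorem abs_int_le {f : ℝ → ℝ} {B : ℝ} (h : ∀ t, |f t| ≤ B) : |∫ t in (0 : ℝ)..1, f t| ≤ B := by
  simpa using norm_integral_le_of_norm_le_const (a := 0) (b := 1) (f := f) fun t _ => h t

theorem Good.sm (H : Good K g s a) (hN : ∀ v, 0 ≤ N v) {α β : ℝ} (hα : 1 ≤ α)
    (h1 : ∀ (t : ℝ) b, CBd N (D a (s + t • 1) b) α)
    (h2 : ∀ (t : ℝ) b, CBd N (D (prm w a) (s + t • 1) b) β) :
    Sm N (Lam1 K w a) s (2 * α * β) := by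
  have hβ := (h2 0 1).1
  refine ⟨⟨by positivity, fun v => ?_⟩, by positivity, fun L C hC hS hL => ?_⟩
  · rw [Lam1_apply K H.lf]
    refine (abs_int_le fun t => (cbd_gm (H.adm t) (h2 t)).2 v).trans ?_
    exact mul_le_mul_of_nonneg_right (by nlinarith) (hN v)
  · have hc := (H.lf.om K w).continuous_fderiv (by simp)
    rw [Lam1, fderiv_lint 1 continuous_const 1 (H.lf.om K w), lint]
    let Lc : (Vn n →L[ℝ] Vn n →L[ℝ] ℝ) →L[ℝ] ℝ := ⟨L,
      LinearMap.continuous_of_finiteDimensional (𝕜 := ℝ) (E := Vn n →L[ℝ] Vn n →L[ℝ] ℝ) (F' := ℝ) L⟩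
    have := ContinuousLinearMap.intervalIntegral_comp_comm (𝕜 := ℝ) (F := ℝ) Lc (a := 0) (b := 1)
      (μ := MeasureTheory.volume) (f := fun τ : ℝ => (1 : ℝ) • fderiv ℝ (om K w a) (s + τ • 1))
      (Continuous.intervalIntegrable (by fun_prop) _ _)
    change |Lc _| ≤ _
    rw [← this]
    refine abs_int_le fun t => ?_
    rw [one_smul]
    exact (om_mass H.lf (H.adm t) (h1 t) (h2 t)).2 L C hC hS hL

theorem cbd_of_sq (hN : ∀ v, 0 ≤ N v) {x : Vn n →L[ℝ] ℝ} {A : ℝ} (hA : 0 ≤ A)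
    (h : ∀ v, x v ^ 2 ≤ A * N v ^ 2) : CBd N x √A := by
  refine ⟨Real.sqrt_nonneg _, fun v => abs_le_of_sq_le_sq' ?_ (by have := hN v; positivity) |> abs_le.2⟩
  rw [mul_pow, Real.sq_sqrt hA]; exact h v

/-- pointwise bound -/
def Pt (N : Vn n → ℝ) (a : Vn n → G → ℝ) (s : Vn n) (A : ℝ) : Prop :=
  ∀ v b (t : ℝ), D a (s + t • 1) b v ^ 2 ≤ A * N v ^ 2

/-- square integral bound on unit windows -/
def W2 (N : Vn n → ℝ) (a : Vn n → G → ℝ) (s : Vn n) (ρ : ℝ) : Prop :=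
  ∀ v b, Win (fun t : ℝ => D a (s + t • 1) b v ^ 2) (ρ * N v ^ 2)

/-- integral bound on unit windows -/
def W1 (a : Vn n → G → ℝ) (s v : Vn n) (ρ : ℝ) : Prop :=
  ∀ U : Finset G, Win (fun t : ℝ => ∑ b ∈ U, |D a (s + t • 1) b v|) ρ

omit [Group G] in
theorem LF.cD (ha : LF a) (s : Vn n) (b : G) (v : Vn n) :
    Continuous fun t : ℝ => An.D a (s + t • 1) b v := by
  have := ha.D.cont b
  fun_prop

omit [Group G] in
theorem LF.cD' (ha : LF a) (s : Vn n) (b : G) (v : Vn n) (t : ℝ) :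
    Continuous fun τ : ℝ => An.D a (s + (t + τ) • 1) b v := (ha.cD s b v).comp (continuous_const_add t)

omit [Group G] in
theorem LF.D_line (ha : LF a) {k : ℝ → ℝ} (hk : Continuous k) (w t : ℝ) (b : G) (v : Vn n) :
    An.D (fun s b => An.lint 1 k w (fun s => a s b) s) (s + t • 1) b v =
      ∫ τ in (0 : ℝ)..w, k τ * An.D a (s + (t + τ) • 1) b v := by
  rw [ha.D_lint 1 hk]
  simp only [smul_eq_mul, add_smul, add_assoc]

theorem sq_av_le {h : ℝ → ℝ} (hc : Continuous h) (hw : 0 < w) :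
    (∫ τ in (0 : ℝ)..w, w⁻¹ * h τ) ^ 2 ≤ ∫ τ in (0 : ℝ)..w, w⁻¹ * h τ ^ 2 := by
  have := sq_integral_le (k := fun _ => 1) hc continuous_const hw (by simp)
  simp only [one_mul] at this
  rw [integral_const_mul, integral_const_mul, mul_pow, sq w⁻¹, mul_assoc]
  exact mul_le_mul_of_nonneg_left ((inv_mul_le_iff₀ hw).2 this) (by positivity)

omit [Group G] in
theorem W2.avg {ρ : ℝ} (H : W2 N a s ρ) (ha : LF a) (hw : 0 < w) :
    W2 N (avg w a) s ρ ∧ Pt N (avg w a) s (w⁻¹ * (w + 1) * ρ) := by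
  have key : ∀ v b (t : ℝ), D (An.avg w a) (s + t • 1) b v ^ 2 ≤
      ∫ τ in (0 : ℝ)..w, w⁻¹ * D a (s + (t + τ) • 1) b v ^ 2 := fun v b t => by
    unfold An.avg
    rw [ha.D_line continuous_const]
    exact sq_av_le (ha.cD' s b v t) hw
  refine ⟨fun v b => ((H v b).avg ((ha.cD s b v).fun_pow 2) hw).of_le
    (((ha.avg w).cD s b v).fun_pow 2) (continuous_av ((ha.cD s b v).fun_pow 2) w) (key v b) le_rfl,
    fun v b t => (key v b t).trans ?_⟩
  rw [integral_const_mul, mul_assoc, mul_assoc]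
  exact mul_le_mul_of_nonneg_left
    ((H v b).window ((ha.cD s b v).fun_pow 2) (fun _ => sq_nonneg _) hw.le t) (by positivity)

omit [Group G] in
theorem W2.seq {ρ : ℝ} (H : W2 N a s ρ) (ha : LF a) {w : ℕ → ℝ} (hw : ∀ j, 0 < w j) :
    ∀ j, W2 N (seq w a j) s ρ
  | 0 => H
  | j + 1 => ((H.seq ha hw j).avg (ha.seq w j) (hw j)).1

omit [Group G] in
theorem W2.prm {ρ : ℝ} (H : W2 N a s ρ) (ha : LF a) (hw : 0 < w) :
    Pt N (prm w a) s (w * (w + 1) * ρ) := fun v b t => by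
  unfold An.prm
  rw [ha.D_line (by fun_prop)]
  refine (sq_integral_le (ha.cD' s b v t) (by fun_prop) hw
    fun τ hτ => ?_).trans ?_
  · have h1 : τ / w ≤ 1 := (div_le_one hw).2 hτ.2
    have h2 : 0 ≤ τ / w := div_nonneg hτ.1 hw.le
    rw [abs_le]; constructor <;> linarith
  · rw [mul_assoc, mul_assoc]
    exact mul_le_mul_of_nonneg_left
      ((H v b).window ((ha.cD s b v).fun_pow 2) (fun _ => sq_nonneg _) hw.le t) hw.le

theorem Good.sm_sq (H : Good K g s a) (hN : ∀ v, 0 ≤ N v) (hw : 0 < w) {A ρ c : ℝ} (hA : 1 ≤ A)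
    (hρ : 0 ≤ ρ) (hc : 0 ≤ c) (h1 : Pt N a s A) (h2 : W2 N a s ρ)
    (h : 4 * A * (w * (w + 1) * ρ) ≤ c ^ 2) : Sm N (Lam1 K w a) s c := by
  have hB : 0 ≤ w * (w + 1) * ρ := by positivity
  refine (H.sm hN (Real.one_le_sqrt.2 hA) (fun t b => cbd_of_sq hN (by linarith) fun v => h1 v b t)
    fun t b => cbd_of_sq hN hB fun v => h2.prm H.lf hw v b t).mono hN ?_
  refine le_of_sq_le_sq ?_ hc
  rwa [mul_pow, mul_pow, Real.sq_sqrt hB, Real.sq_sqrt (by linarith), show (2 : ℝ) ^ 2 = 4 by norm_num]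

omit [Group G] in
theorem LF.cA (ha : LF a) (s v : Vn n) (U : Finset G) :
    Continuous fun t : ℝ => ∑ b ∈ U, |An.D a (s + t • 1) b v| :=
  continuous_finsetSum _ fun b _ => (ha.cD s b v).abs

omit [Group G] in
theorem W1.avg {ρ : ℝ} {v : Vn n} (H : W1 a s v ρ) (ha : LF a) (hw : 0 < w) :
    W1 (avg w a) s v ρ ∧ ∀ (U : Finset G) (t : ℝ),
      ∑ b ∈ U, |D (An.avg w a) (s + t • 1) b v| ≤ w⁻¹ * (w + 1) * ρ := by
  have key : ∀ (U : Finset G) (t : ℝ), ∑ b ∈ U, |D (An.avg w a) (s + t • 1) b v| ≤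
      ∫ τ in (0 : ℝ)..w, w⁻¹ * ∑ b ∈ U, |D a (s + (t + τ) • 1) b v| := fun U t => by
    simp only [mul_sum]
    rw [integral_finsetSum fun b _ =>
      ((ha.cD' s b v t).abs.const_mul _).intervalIntegrable _ _]
    refine sum_le_sum fun b _ => ?_
    unfold An.avg
    rw [ha.D_line continuous_const]
    refine (abs_integral_le_integral_abs hw.le).trans (le_of_eq ?_)
    simp only [abs_mul, abs_of_pos (inv_pos.2 hw)]
  refine ⟨fun U => ((H U).avg (ha.cA s v U) hw).of_le ((ha.avg w).cA s v U)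
    (continuous_av (ha.cA s v U) w) (key U) le_rfl, fun U t => (key U t).trans ?_⟩
  rw [integral_const_mul, mul_assoc]
  exact mul_le_mul_of_nonneg_left ((H U).window (ha.cA s v U)
    (fun _ => sum_nonneg fun _ _ => abs_nonneg _) hw.le t) (by positivity)

omit [Group G] in
theorem W1.seq {ρ : ℝ} {v : Vn n} (H : W1 a s v ρ) (ha : LF a) {w : ℕ → ℝ} (hw : ∀ j, 0 < w j) :
    ∀ j, W1 (seq w a j) s v ρ
  | 0 => H
  | j + 1 => ((H.seq ha hw j).avg (ha.seq w j) (hw j)).1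

theorem Good.W1_rcn (H : Good K g s a) {ρ : ℝ} {v : Vn n} (h : W1 a s v ρ) :
    W1 (An.rcn K a) s v (2 * K.W * ρ) := fun U t0 => by
  obtain ⟨U', hU'⟩ := H.lf.line s 1 (|t0| + 1)
  have hW := K.W_nonneg
  refine le_trans (integral_mono_on (by linarith) (((H.lf.rcn K).cA s v U).intervalIntegrable _ _)
    (((H.lf.cA s v U').const_mul (2 * K.W)).intervalIntegrable _ _) fun t ht => ?_)
    ((h U').const_mul (by positivity) t0)
  simp only [H.lf.D_rcn]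
  refine (H.adm t).dm_abs _ (hU' t ?_) U
  rw [abs_le]
  constructor <;> linarith [ht.1, ht.2, neg_abs_le t0, le_abs_self t0]

theorem Good.Pt_rcn (H : Good K g s a) {A : ℝ} (h : Pt N a s A) :
    Pt N (An.rcn K a) s (4 * K.c ^ 2 * A) := fun v b t => by
  rw [H.lf.D_rcn, mul_assoc _ A]
  refine ((H.adm t).dm_sq _ b).trans (mul_le_mul_of_nonneg_left ?_ (by positivity))
  rw [tsum_eq_sum (s := (H.adm t).fin.toFinset) fun b hb => by
    have : a (s + t • 1) b = 0 := by simpa using hb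
    simp [Ker.gn, this]]
  exact (le_abs_self _).trans ((H.adm t).abs_sum_le (H.adm t).gn_nonneg (fun _ => le_rfl)
    (fun b => by rw [abs_sq]; exact h v b t) _)

end Vale.Agent.P184.An
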